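import Vale.Agent.H11.TT.Defs

/-! Row A0: basic facts. -/

namespace Vale.Agent.H11.TT

open Filter Topology
open scoped RealInnerProductSpace
open Vale.Agent.H11.TS (CubicData)

variable {E : Type*} [NormedAddCommGroup E] [InnerProductSpace ℝ E]
variable {F : E → ℝ} {n : E → E}

theorem GradData.F_zero (h : GradData F n) : F 0 = 0 := by
  have := h.smul 0 0
  simpa using this

theorem GradData.a0_smul (h : GradData F n) {t : ℝ} (ht : t ≠ 0) {v : E} (hv : v ≠ 0) :
    t • n (t • v) = |t| • n v := by
  have htv : t • v ≠ 0 := smul_ne_zero ht hv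
  have h1 : HasFDerivAt (fun w => F (t • w))
      ((innerSL ℝ (n (t • v))).comp (t • ContinuousLinearMap.id ℝ E)) v :=
    (h.grad (t • v) htv).comp v ((hasFDerivAt_id v).const_smul t)
  have h2 : HasFDerivAt (fun w => F (t • w)) (|t| • innerSL ℝ (n v)) v := by
    have e : (fun w => F (t • w)) = fun w => |t| * F w := funext fun w => h.smul t w
    rw [e]
    exact (h.grad v hv).const_mul |t|
  have h3 := h1.unique h2
  apply ext_inner_right ℝ
  intro w
  have h4 := congrArg (fun L : E →L[ℝ] ℝ => L w) h3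
  simp only [ContinuousLinearMap.comp_apply, ContinuousLinearMap.smul_apply,
    ContinuousLinearMap.id_apply, innerSL_apply_apply, smul_eq_mul, inner_smul_right] at h4
  rw [inner_smul_left, inner_smul_left]
  simpa using h4

theorem GradData.n_smul (h : GradData F n) {t : ℝ} (ht : 0 < t) {v : E} (hv : v ≠ 0) :
    n (t • v) = n v := by
  have h1 := h.a0_smul ht.ne' hv
  rw [abs_of_pos ht] at h1
  exact smul_right_injective E ht.ne' h1

theorem GradData.n_neg (h : GradData F n) {v : E} (hv : v ≠ 0) : n (-v) = -n v := by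
  have h1 := h.a0_smul (t := -1) (by norm_num) hv
  simp only [neg_smul, one_smul, abs_neg, abs_one] at h1
  rw [← h1, neg_neg]

theorem GradData.a0_line (h : GradData F n) {v : E} (hv : v ≠ 0) (w : E) :
    HasDerivAt (fun t : ℝ => F (v + t • w)) ⟪n v, w⟫ 0 := by
  have h1 : HasDerivAt (fun t : ℝ => v + t • w) w 0 := by
    have := ((hasDerivAt_id (0 : ℝ)).smul_const w).const_add v
    simpa using this
  have h0 : v + (0 : ℝ) • w = v := by simp
  have h2 : HasFDerivAt F (innerSL ℝ (n v)) (v + (0 : ℝ) • w) := by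
    rw [h0]; exact h.grad v hv
  have h3 := h2.comp_hasDerivAt (0 : ℝ) h1
  have h4 : HasDerivAt (fun t : ℝ => F (v + t • w)) (innerSL ℝ (n v) w) 0 := h3
  rwa [innerSL_apply_apply] at h4

theorem GradData.n_self (h : GradData F n) {v : E} (hv : v ≠ 0) : ⟪n v, v⟫ = F v := by
  have h1 := h.a0_line hv v
  have h2 : HasDerivAt (fun t : ℝ => F (v + t • v)) (F v) 0 := by
    have h3 : HasDerivAt (fun t : ℝ => (1 + t) * F v) (F v) 0 := by
      have := ((hasDerivAt_id (0 : ℝ)).const_add 1).mul_const (F v)
      simpa using this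
    refine h3.congr_of_eventuallyEq ?_
    have : ∀ᶠ t : ℝ in 𝓝 0, -1 < t := Ioi_mem_nhds (by norm_num)
    filter_upwards [this] with t ht
    have e : v + t • v = (1 + t) • v := by rw [add_smul, one_smul]
    rw [e, h.smul, abs_of_pos (by linarith)]
  exact h1.unique h2

theorem GradData.n_le (h : GradData F n) {v : E} (hv : v ≠ 0) (w : E) : ⟪n v, w⟫ ≤ F w := by
  have h1 := (h.a0_line hv w).hasDerivWithinAt (s := Set.Ioi 0)
  rw [hasDerivWithinAt_iff_tendsto_slope' (by simp)] at h1
  refine le_of_tendsto h1 ?_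
  filter_upwards [self_mem_nhdsWithin] with t ht
  have ht' : (0 : ℝ) < t := ht
  rw [slope_def_field]
  rw [div_le_iff₀ (by linarith)]
  have h2 := h.add_le v (t • w)
  rw [h.smul, abs_of_pos ht'] at h2
  simp only [zero_smul, add_zero, sub_zero]
  linarith

end Vale.Agent.H11.TT
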