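import Vale.Agent.H11.TT.A0

/-! Row A1: maximum of a linear functional on the unit sphere of `F`. -/

namespace Vale.Agent.H11.TT

open Filter Topology
open scoped RealInnerProductSpace
open Vale.Agent.H11.TS (CubicData)

variable {E : Type*} [NormedAddCommGroup E] [InnerProductSpace ℝ E]
variable {F : E → ℝ} {n : E → E}

theorem GradData.a1_lower [FiniteDimensional ℝ E] [Nontrivial E] (h : GradData F n) :
    ∃ c : ℝ, 0 < c ∧ ∀ z, c * ‖z‖ ≤ F z := by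
  have hc : IsCompact (Metric.sphere (0 : E) 1) := isCompact_sphere 0 1
  have hne : (Metric.sphere (0 : E) 1).Nonempty := NormedSpace.sphere_nonempty.2 zero_le_one
  obtain ⟨x, hx, hmin⟩ := hc.exists_isMinOn hne h.cont.continuousOn
  have hx0 : x ≠ 0 := by
    rintro rfl
    simp at hx
  refine ⟨F x, h.pos x hx0, fun z => ?_⟩
  by_cases hz : z = 0
  · rw [hz, norm_zero, mul_zero, h.F_zero]
  · have hz' : 0 < ‖z‖ := norm_pos_iff.2 hz
    have h1 : ‖z‖⁻¹ • z ∈ Metric.sphere (0 : E) 1 := by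
      rw [mem_sphere_zero_iff_norm, norm_smul, norm_inv, norm_norm, inv_mul_cancel₀ hz'.ne']
    have h2 : F x ≤ F (‖z‖⁻¹ • z) := hmin h1
    rw [h.smul, abs_of_pos (inv_pos.2 hz')] at h2
    rw [inv_mul_eq_div, le_div_iff₀ hz'] at h2
    exact h2

theorem GradData.a1_compact [FiniteDimensional ℝ E] [Nontrivial E] (h : GradData F n) :
    IsCompact {z : E | F z = 1} := by
  obtain ⟨c, hc, hcz⟩ := h.a1_lower
  apply Metric.isCompact_of_isClosed_isBounded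
  · exact isClosed_eq h.cont continuous_const
  · refine (Metric.isBounded_closedBall (x := (0 : E)) (r := 1 / c)).subset ?_
    intro z hz
    rw [mem_closedBall_zero_iff, le_div_iff₀ hc]
    have := hcz z
    have hz' : F z = 1 := hz
    linarith

theorem GradData.exists_max [FiniteDimensional ℝ E] (h : GradData F n) (ν : E) (hν : ν ≠ 0) :
    ∃ (V : E) (M : ℝ), 0 < M ∧ F V = 1 ∧ V ≠ 0 ∧ n V = M⁻¹ • ν ∧ (∀ z, ⟪ν, z⟫ ≤ M * F z) ∧
      ⟪ν, V⟫ = M := by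
  have : Nontrivial E := ⟨⟨ν, 0, hν⟩⟩
  have hFν : 0 < F ν := h.pos ν hν
  have hνS : (F ν)⁻¹ • ν ∈ {z : E | F z = 1} := by
    show F ((F ν)⁻¹ • ν) = 1
    rw [h.smul, abs_of_pos (inv_pos.2 hFν), inv_mul_cancel₀ hFν.ne']
  obtain ⟨V, hV, hmax⟩ := h.a1_compact.exists_isMaxOn (f := fun z => ⟪ν, z⟫) ⟨_, hνS⟩
    (by fun_prop)
  have hV1 : F V = 1 := hV
  have hV0 : V ≠ 0 := by
    rintro rfl
    rw [h.F_zero] at hV1
    exact zero_ne_one hV1
  have hM : 0 < ⟪ν, V⟫ := by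
    have h1 : ⟪ν, (F ν)⁻¹ • ν⟫ ≤ ⟪ν, V⟫ := hmax hνS
    have h2 : 0 < ⟪ν, (F ν)⁻¹ • ν⟫ := by
      rw [inner_smul_right, real_inner_self_eq_norm_sq]
      have := norm_pos_iff.2 hν
      positivity
    linarith
  have hle : ∀ z, ⟪ν, z⟫ ≤ ⟪ν, V⟫ * F z := by
    intro z
    by_cases hz : z = 0
    · rw [hz, inner_zero_right, h.F_zero, mul_zero]
    · have hFz : 0 < F z := h.pos z hz
      have hzS : (F z)⁻¹ • z ∈ {z : E | F z = 1} := by
        show F ((F z)⁻¹ • z) = 1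
        rw [h.smul, abs_of_pos (inv_pos.2 hFz), inv_mul_cancel₀ hFz.ne']
      have h1 : ⟪ν, (F z)⁻¹ • z⟫ ≤ ⟪ν, V⟫ := hmax hzS
      rw [inner_smul_right, inv_mul_eq_div, div_le_iff₀ hFz] at h1
      exact h1
  refine ⟨V, ⟪ν, V⟫, hM, hV1, hV0, ?_, hle, rfl⟩
  have hd : HasFDerivAt (fun z => ⟪ν, V⟫ * F z - ⟪ν, z⟫)
      (⟪ν, V⟫ • innerSL ℝ (n V) - innerSL ℝ ν) V :=
    ((h.grad V hV0).const_mul _).sub (innerSL ℝ ν).hasFDerivAt
  have hmin : IsLocalMin (fun z => ⟪ν, V⟫ * F z - ⟪ν, z⟫) V := by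
    apply Filter.Eventually.of_forall
    intro z
    show ⟪ν, V⟫ * F V - ⟪ν, V⟫ ≤ ⟪ν, V⟫ * F z - ⟪ν, z⟫
    rw [hV1]
    have := hle z
    linarith
  have h0 := hmin.hasFDerivAt_eq_zero hd
  have h1 : ⟪ν, V⟫ • n V = ν := by
    apply ext_inner_right ℝ
    intro w
    have h2 := congrArg (fun L : E →L[ℝ] ℝ => L w) h0
    simp only [ContinuousLinearMap.sub_apply, ContinuousLinearMap.smul_apply,
      innerSL_apply_apply, smul_eq_mul, ContinuousLinearMap.zero_apply] at h2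
    rw [inner_smul_left]
    simp only [conj_trivial]
    linarith
  have h3 : n V = ⟪ν, V⟫⁻¹ • (⟪ν, V⟫ • n V) := by
    rw [smul_smul, inv_mul_cancel₀ hM.ne', one_smul]
  rw [h3, h1]

end Vale.Agent.H11.TT
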