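import Vale.Agent.H11.TT.A0

/-! # Row T6 (`approx_seq` enters as a hypothesis) -/

namespace Vale.Agent.H11.TT

open Filter Topology
open scoped RealInnerProductSpace
open Vale.Agent.H11.TS (CubicData)

variable {E : Type*} [NormedAddCommGroup E] [InnerProductSpace ℝ E]
variable {F : E → ℝ} {n : E → E} {K : E →L[ℝ] E →L[ℝ] E}

theorem K_eq_zero_of_eig_of (h : GradData F n) (hK : CubicData n K)
    {V W : E} {μ : ℝ} (hV : F V = 1)
    (happ : ∀ w : E, ∃ (s : ℕ → ℝ) (Vj : ℕ → E) (c : ℕ → ℝ),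
      (∀ j, 0 < s j) ∧ Tendsto s atTop (𝓝 0) ∧ (∀ j, 0 < c j) ∧ (∀ j, Vj j ≠ 0) ∧
      (∀ j, n (Vj j) = c j • (n V + s j • w)) ∧ Tendsto Vj atTop (𝓝 V) ∧
      (w ≠ 0 → ⟪w, V⟫ = 0 → ∀ j, 0 < ⟪w, Vj j⟫))
    (hμ : K (n V) V = μ • V) (hW : K (n V) W = μ • W) (hWV : ⟪W, V⟫ = 0) : K V W = 0 := by
  have hV0 : V ≠ 0 := by
    intro h0
    rw [h0, h.F_zero] at hV
    exact zero_ne_one hV
  have key : ∀ w, ⟪K w V, W⟫ = 0 := by
    intro w
    obtain ⟨s, Vj, c, hs, _, hc, hVj0, hn, hlim, _⟩ := happ w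
    have h1 : ∀ j, ⟪K w (Vj j), W⟫ * ⟪Vj j, V⟫ = ⟪K w (Vj j), V⟫ * ⟪Vj j, W⟫ := by
      intro j
      obtain ⟨lam, hlam⟩ := hK.eig (Vj j) (hVj0 j)
      rw [hn j, map_smul] at hlam
      have h2 : K (n V + s j • w) (Vj j) = (lam / c j) • Vj j := by
        have h3 : c j • K (n V + s j • w) (Vj j) = lam • Vj j := by
          simpa using hlam
        rw [div_eq_inv_mul, mul_smul, ← h3, smul_smul, inv_mul_cancel₀ (hc j).ne', one_smul]
      set μj := lam / c j with hμj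
      have h4 : K (n V) (Vj j) + s j • K w (Vj j) = μj • Vj j := by
        rw [← h2]; simp
      have h5 : s j * ⟪K w (Vj j), W⟫ = (μj - μ) * ⟪Vj j, W⟫ := by
        have h6 : ⟪K (n V) (Vj j) + s j • K w (Vj j), W⟫ = μj * ⟪Vj j, W⟫ := by
          rw [h4, inner_smul_left]; simp
        rw [inner_add_left, inner_smul_left, hK.self, hW, inner_smul_right] at h6
        simp only [conj_trivial] at h6
        linarith
      have h7 : s j * ⟪K w (Vj j), V⟫ = (μj - μ) * ⟪Vj j, V⟫ := by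
        have h6 : ⟪K (n V) (Vj j) + s j • K w (Vj j), V⟫ = μj * ⟪Vj j, V⟫ := by
          rw [h4, inner_smul_left]; simp
        rw [inner_add_left, inner_smul_left, hK.self, hμ, inner_smul_right] at h6
        simp only [conj_trivial] at h6
        linarith
      have h8 : s j * (⟪K w (Vj j), W⟫ * ⟪Vj j, V⟫) = s j * (⟪K w (Vj j), V⟫ * ⟪Vj j, W⟫) := by
        rw [← mul_assoc, h5, ← mul_assoc, h7]; ring
      exact mul_left_cancel₀ (hs j).ne' h8
    have hKl : Tendsto (fun j => K w (Vj j)) atTop (𝓝 (K w V)) :=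
      ((K w).continuous.tendsto V).comp hlim
    have hl : Tendsto (fun j => ⟪K w (Vj j), W⟫ * ⟪Vj j, V⟫) atTop (𝓝 (⟪K w V, W⟫ * ⟪V, V⟫)) :=
      (hKl.inner tendsto_const_nhds).mul (hlim.inner tendsto_const_nhds)
    have hr : Tendsto (fun j => ⟪K w (Vj j), V⟫ * ⟪Vj j, W⟫) atTop (𝓝 (⟪K w V, V⟫ * ⟪V, W⟫)) :=
      (hKl.inner tendsto_const_nhds).mul (hlim.inner tendsto_const_nhds)
    have hr' := hr.congr (fun j => (h1 j).symm)
    have h9 := tendsto_nhds_unique hl hr'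
    rw [real_inner_comm W V, hWV, mul_zero] at h9
    rcases mul_eq_zero.1 h9 with h10 | h10
    · exact h10
    · exact absurd (inner_self_eq_zero.1 h10) hV0
  have h11 := key (K V W)
  rw [hK.symm, hK.self, real_inner_comm] at h11
  have h12 : ⟪K V W, K V W⟫ = 0 := by
    rw [hK.self]
    have := key (K V W)
    rw [hK.symm, hK.self] at this
    rw [← hK.self]
    rw [real_inner_comm]
    exact this
  exact inner_self_eq_zero.1 h12

end Vale.Agent.H11.TT
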