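import Vale.Agent.H11.TS.A7
import Vale.Agent.H11.TT.A6

/-! # Row T7 (`approx_seq` enters as a hypothesis) -/

namespace Vale.Agent.H11.TT

open Filter Topology
open scoped RealInnerProductSpace
open Vale.Agent.H11.TS (CubicData)

variable {E : Type*} [NormedAddCommGroup E] [InnerProductSpace ℝ E]
variable {F : E → ℝ} {n : E → E} {K : E →L[ℝ] E →L[ℝ] E}

/-- solutions of `D x = s B x` near `s = 0` lie in `ker D ⊓ ker B` if the solutions converge -/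
theorem pencil_eventually [FiniteDimensional ℝ E] {D B : E →L[ℝ] E}
    (hD : ∀ u w, ⟪D u, w⟫ = ⟪u, D w⟫) (hD0 : ∀ u, 0 ≤ ⟪D u, u⟫)
    (hB : ∀ u w, ⟪B u, w⟫ = ⟪u, B w⟫) {s : ℕ → ℝ} (hs : ∀ j, 0 < s j)
    (hs0 : Tendsto s atTop (𝓝 0)) {x : ℕ → E}
    (hDx : ∀ᶠ j in atTop, D (x j) = s j • B (x j)) :
    ∀ᶠ j in atTop, D (x j) = 0 ∧ B (x j) = 0 := by
  set N0 : Submodule ℝ E := LinearMap.ker (D : E →ₗ[ℝ] E) ⊓ LinearMap.ker (B : E →ₗ[ℝ] E) with hN0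
  have hmem : ∀ v, v ∈ N0 ↔ D v = 0 ∧ B v = 0 := by
    intro v
    rw [hN0, Submodule.mem_inf, LinearMap.mem_ker, LinearMap.mem_ker]
    rfl
  let P : E →L[ℝ] E := N0.starProjection
  have hPmem : ∀ v, P v ∈ N0 := fun v => by
    exact Submodule.starProjection_apply_mem N0 v
  have hPorth : ∀ v, ∀ w ∈ N0, ⟪w, v - P v⟫ = 0 := fun v w hw => by
    exact (Submodule.sub_starProjection_mem_orthogonal v) w hw
  have hev : ∀ᶠ j in atTop, x j - P (x j) = 0 := by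
    by_contra hne
    have hfr : ∃ᶠ j in atTop, x j - P (x j) ≠ 0 := Filter.not_eventually.1 hne
    have hfr2 := hfr.and_eventually hDx
    obtain ⟨φ, hφ, hφ'⟩ := Filter.extraction_of_frequently_atTop hfr2
    let z : ℕ → E := fun j => x (φ j) - P (x (φ j))
    have hz0 : ∀ j, z j ≠ 0 := fun j => (hφ' j).1
    have hDz : ∀ j, D (z j) = s (φ j) • B (z j) := by
      intro j
      have h1 := (hmem _).1 (hPmem (x (φ j)))
      show D (x (φ j) - P (x (φ j))) = s (φ j) • B (x (φ j) - P (x (φ j)))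
      rw [map_sub, map_sub, h1.1, h1.2, sub_zero, sub_zero]
      exact (hφ' j).2
    obtain ⟨Y, hY, ψ, hψ, hlim⟩ := (isCompact_sphere (0 : E) 1).tendsto_subseq
      (x := fun j => ‖z j‖⁻¹ • z j) (fun j => by
        rw [mem_sphere_zero_iff_norm]; exact norm_smul_inv_norm (𝕜 := ℝ) (hz0 j))
    have hDx' : ∀ᶠ j in atTop, D (((fun j => ‖z j‖⁻¹ • z j) ∘ ψ) j) =
        s (φ (ψ j)) • B (((fun j => ‖z j‖⁻¹ • z j) ∘ ψ) j) := by
      refine Eventually.of_forall fun j => ?_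
      show D (‖z (ψ j)‖⁻¹ • z (ψ j)) = s (φ (ψ j)) • B (‖z (ψ j)‖⁻¹ • z (ψ j))
      rw [map_smul, map_smul, hDz, smul_comm]
    obtain ⟨hDY, hBY⟩ := Vale.Agent.H11.TS.A7.pencil hD hD0 hB (s := fun j => s (φ (ψ j)))
      (fun j => hs _) (hs0.comp ((hφ.comp hψ).tendsto_atTop)) hlim hDx'
    have hYN : Y ∈ N0 := (hmem Y).2 ⟨hDY, hBY⟩
    have horth : ∀ j, ⟪Y, ((fun j => ‖z j‖⁻¹ • z j) ∘ ψ) j⟫ = 0 := by
      intro j
      show ⟪Y, ‖z (ψ j)‖⁻¹ • (x (φ (ψ j)) - P (x (φ (ψ j))))⟫ = 0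
      rw [real_inner_smul_right, hPorth _ Y hYN, mul_zero]
    have h1 : Tendsto (fun j => ⟪Y, ((fun j => ‖z j‖⁻¹ • z j) ∘ ψ) j⟫) atTop (𝓝 ⟪Y, Y⟫) :=
      tendsto_const_nhds.inner hlim
    have h2 : ⟪Y, Y⟫ = 0 := by
      refine tendsto_nhds_unique h1 ?_
      simp only [horth]
      exact tendsto_const_nhds
    have h3 : Y = 0 := inner_self_eq_zero.1 h2
    rw [mem_sphere_zero_iff_norm, h3, norm_zero] at hY
    exact zero_ne_one hY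
  filter_upwards [hev] with j hj
  have h1 : x j = P (x j) := sub_eq_zero.1 hj
  rw [h1]
  exact (hmem _).1 (hPmem _)

theorem no_double_of [FiniteDimensional ℝ E] (h : GradData F n) (hK : CubicData n K)
    (happ : ∀ V w : E, F V = 1 → ∃ (s : ℕ → ℝ) (Vj : ℕ → E) (c : ℕ → ℝ),
      (∀ j, 0 < s j) ∧ Tendsto s atTop (𝓝 0) ∧ (∀ j, 0 < c j) ∧ (∀ j, Vj j ≠ 0) ∧
      (∀ j, n (Vj j) = c j • (n V + s j • w)) ∧ Tendsto Vj atTop (𝓝 V) ∧
      (w ≠ 0 → ⟪w, V⟫ = 0 → ∀ j, 0 < ⟪w, Vj j⟫))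
    {V W : E} {μ : ℝ} (hV : V ≠ 0) (hμ : K (n V) V = μ • V)
    (htop : ∀ w, ⟪K (n V) w, w⟫ ≤ μ * ‖w‖ ^ 2)
    (hW0 : W ≠ 0) (hW : K (n V) W = μ • W) (hWV : ⟪W, V⟫ = 0)
    {V0 : E} (hpos : ∀ U, U ≠ 0 → 0 < ⟪K V0 U, U⟫) : False := by
  obtain ⟨W1, β, hβ, hW10, hW1, hW1V, hcrit⟩ :=
    Vale.Agent.H11.TS.A7.choose (K (n V)) (K V0) (hK.self V0) hW0 hW hWV hpos
  have hF := h.pos V hV
  obtain ⟨Vh, hVh⟩ : ∃ Vh : E, Vh = (F V)⁻¹ • V := ⟨_, rfl⟩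
  have hVh0 : Vh ≠ 0 := by
    rw [hVh]
    exact smul_ne_zero (inv_pos.2 hF).ne' hV
  have hFVh : F Vh = 1 := by
    rw [hVh, h.smul, abs_of_pos (inv_pos.2 hF), inv_mul_cancel₀ hF.ne']
  have hnVh : n Vh = n V := by rw [hVh, h.n_smul (inv_pos.2 hF) hV]
  have hW1Vh : ⟪W1, Vh⟫ = 0 := by rw [hVh, real_inner_smul_right, hW1V, mul_zero]
  have hμh : K (n V) Vh = μ • Vh := by rw [hVh, map_smul, hμ, smul_comm]
  have hKVhW : K Vh W1 = 0 :=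
    K_eq_zero_of_eig_of h hK hFVh (fun w => happ Vh w hFVh) (by rw [hnVh, hμh])
      (by rw [hnVh, hW1]) hW1Vh
  have hKW1Vh : K W1 Vh = 0 := by rw [hK.symm, hKVhW]
  obtain ⟨s, Vj, cj, hs, hs0, hcj, hVj0, hnVj, hVjlim, hVjpos⟩ := happ Vh W1 hFVh
  have hWY := hVjpos hW10 hW1Vh
  have hμj : ∀ j, ∃ ν : ℝ, K (n V + s j • W1) (Vj j) = ν • Vj j := by
    intro j
    obtain ⟨ν, hν⟩ := hK.eig (Vj j) (hVj0 j)
    rw [hnVj, hnVh, map_smul, _root_.smul_apply] at hν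
    refine ⟨(cj j)⁻¹ * ν, ?_⟩
    rw [mul_smul, ← hν, smul_smul, inv_mul_cancel₀ (hcj j).ne', one_smul]
  choose ν hν using hμj
  have hVVh : 0 < ⟪Vh, Vh⟫ := real_inner_self_pos.2 hVh0
  have hne : ∀ᶠ j in atTop, ⟪Vj j, Vh⟫ ≠ 0 := by
    have h1 : Tendsto (fun j => ⟪Vj j, Vh⟫) atTop (𝓝 ⟪Vh, Vh⟫) :=
      hVjlim.inner tendsto_const_nhds
    exact h1.eventually_ne hVVh.ne'
  have hkey : ∀ j, K (n V + s j • W1) Vh = μ • Vh := by
    intro j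
    rw [map_add, map_smul, _root_.add_apply, _root_.smul_apply, hKW1Vh, smul_zero, add_zero, hμh]
  have hνμ : ∀ᶠ j in atTop, ν j = μ := by
    filter_upwards [hne] with j hj
    have h1 : ⟪K (n V + s j • W1) (Vj j), Vh⟫ = ν j * ⟪Vj j, Vh⟫ := by
      rw [hν, real_inner_smul_left]
    rw [hK.self, hkey, real_inner_smul_right] at h1
    exact (mul_right_cancel₀ hj h1).symm
  -- the pencil
  set D : E →L[ℝ] E := μ • ContinuousLinearMap.id ℝ E - K (n V) with hDdef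
  have hDapp : ∀ u, D u = μ • u - K (n V) u := fun u => by rw [hDdef]; simp
  have hDs : ∀ u w, ⟪D u, w⟫ = ⟪u, D w⟫ := by
    intro u w
    rw [hDapp, hDapp, inner_sub_left, inner_sub_right, real_inner_smul_left,
      real_inner_smul_right, hK.self]
  have hD0 : ∀ u, 0 ≤ ⟪D u, u⟫ := by
    intro u
    rw [hDapp, inner_sub_left, real_inner_smul_left, real_inner_self_eq_norm_sq]
    have := htop u
    linarith
  have hDx : ∀ᶠ j in atTop, D (Vj j) = s j • K W1 (Vj j) := by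
    filter_upwards [hνμ] with j hj
    have h1 := hν j
    rw [hj, map_add, map_smul, _root_.add_apply, _root_.smul_apply] at h1
    rw [hDapp, ← h1]
    abel
  obtain ⟨j, hDY, hBY⟩ := (pencil_eventually hDs hD0 (hK.self W1) hs hs0 hDx).exists
  have hWYj := hWY j
  obtain ⟨Y, hYdef⟩ : ∃ Y, Y = Vj j := ⟨_, rfl⟩
  rw [← hYdef] at hDY hBY hWYj
  rw [hDapp] at hDY
  have hY' : K (n V) (Y - (⟪Y, Vh⟫ / ⟪Vh, Vh⟫) • Vh) = μ • (Y - (⟪Y, Vh⟫ / ⟪Vh, Vh⟫) • Vh) := by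
    rw [map_sub, map_smul, hμh, ← sub_eq_zero.1 hDY, smul_sub, smul_comm]
  have hY'Vh : ⟪Y - (⟪Y, Vh⟫ / ⟪Vh, Vh⟫) • Vh, Vh⟫ = 0 := by
    rw [inner_sub_left, real_inner_smul_left]
    field_simp
    ring
  have hY'V : ⟪Y - (⟪Y, Vh⟫ / ⟪Vh, Vh⟫) • Vh, V⟫ = 0 := by
    have hVV : V = F V • Vh := by
      rw [hVh, smul_smul, mul_inv_cancel₀ hF.ne', one_smul]
    rw [hVV, real_inner_smul_right, hY'Vh, mul_zero]
  have h1 := hcrit _ hY' hY'V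
  have h2 : ⟪K V0 W1, Y - (⟪Y, Vh⟫ / ⟪Vh, Vh⟫) • Vh⟫ = 0 := by
    rw [hK.symm, hK.self, map_sub, map_smul, hBY, hKW1Vh]
    simp
  rw [h2, inner_sub_right, real_inner_smul_right, hW1Vh, mul_zero, sub_zero] at h1
  have := mul_pos hβ hWYj
  linarith

end Vale.Agent.H11.TT
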