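import Vale.Agent.H11.TT.T2
import Vale.Agent.H11.TS.A5

/-! Row T5: positivity of `K V0`. -/

namespace Vale.Agent.H11.TT

open Filter Topology
open scoped RealInnerProductSpace
open Vale.Agent.H11.TS (CubicData)

variable {E : Type*} [NormedAddCommGroup E] [InnerProductSpace ℝ E]
variable {F : E → ℝ} {n : E → E} {K : E →L[ℝ] E →L[ℝ] E}

theorem K_top_pos [FiniteDimensional ℝ E] (h : GradData F n) (hK : CubicData n K) {V0 : E}
    {κ : ℝ} (h1 : ‖V0‖ = 1) (hκ : 0 < κ) (h2 : K V0 V0 = κ • V0)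
    (h3 : ∀ U, ⟪U, V0⟫ = 0 → ⟪K V0 U, U⟫ ≤ κ / 2 * ‖U‖ ^ 2)
    {c : ℝ} (hc : 0 < c) (hn : n V0 = c • V0) :
    ∀ U, U ≠ 0 → 0 < ⟪K V0 U, U⟫ := by
  have hV0 : V0 ≠ 0 := by
    intro h0
    rw [h0, norm_zero] at h1
    exact zero_ne_one h1
  have hVV : ⟪V0, V0⟫ = 1 := by rw [real_inner_self_eq_norm_sq, h1]; norm_num
  -- the main step: positivity on the orthogonal complement
  have main : ∀ U, U ≠ 0 → ⟪U, V0⟫ = 0 → 0 < ⟪K V0 U, U⟫ := by
    intro U' hU'0 hU'V
    by_contra hneg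
    push Not at hneg
    -- minimiser
    have hcomp : IsCompact (Metric.sphere (0 : E) 1 ∩ {U | ⟪U, V0⟫ = 0}) := by
      apply (isCompact_sphere (0 : E) 1).inter_right
      exact isClosed_eq (by fun_prop) continuous_const
    have hU'n : 0 < ‖U'‖ := norm_pos_iff.2 hU'0
    have hmem : ‖U'‖⁻¹ • U' ∈ Metric.sphere (0 : E) 1 ∩ {U | ⟪U, V0⟫ = 0} := by
      refine ⟨by simp [norm_smul, hU'n.ne'], ?_⟩
      simp only [Set.mem_ofPred_eq]
      rw [real_inner_smul_left, hU'V, mul_zero]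
    have hcont : Continuous fun U : E => ⟪K V0 U, U⟫ := by fun_prop
    obtain ⟨U, hU, hmin⟩ := hcomp.exists_isMinOn ⟨_, hmem⟩ hcont.continuousOn
    have hU1 : ‖U‖ = 1 := by simpa using hU.1
    have hUV : ⟪U, V0⟫ = 0 := hU.2
    set b : ℝ := ⟪K V0 U, U⟫ with hb
    have hb0 : b ≤ 0 := by
      have h4 : b ≤ ⟪K V0 (‖U'‖⁻¹ • U'), ‖U'‖⁻¹ • U'⟫ := hmin hmem
      rw [map_smul, real_inner_smul_left, real_inner_smul_right] at h4
      have h5 : ‖U'‖⁻¹ * (‖U'‖⁻¹ * ⟪K V0 U', U'⟫) ≤ 0 := by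
        apply mul_nonpos_of_nonneg_of_nonpos (by positivity)
        exact mul_nonpos_of_nonneg_of_nonpos (by positivity) hneg
      linarith
    have hge : ∀ Z : E, ⟪Z, V0⟫ = 0 → b * ‖Z‖ ^ 2 ≤ ⟪K V0 Z, Z⟫ := by
      intro Z hZ
      by_cases hZ0 : Z = 0
      · rw [hZ0]; simp
      · have hZn : 0 < ‖Z‖ := norm_pos_iff.2 hZ0
        have hmemZ : ‖Z‖⁻¹ • Z ∈ Metric.sphere (0 : E) 1 ∩ {U | ⟪U, V0⟫ = 0} := by
          refine ⟨by simp [norm_smul, hZn.ne'], ?_⟩
          simp only [Set.mem_ofPred_eq]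
          rw [real_inner_smul_left, hZ, mul_zero]
        have h4 : b ≤ ⟪K V0 (‖Z‖⁻¹ • Z), ‖Z‖⁻¹ • Z⟫ := hmin hmemZ
        rw [map_smul, real_inner_smul_left, real_inner_smul_right] at h4
        calc b * ‖Z‖ ^ 2 ≤ (‖Z‖⁻¹ * (‖Z‖⁻¹ * ⟪K V0 Z, Z⟫)) * ‖Z‖ ^ 2 :=
              mul_le_mul_of_nonneg_right h4 (by positivity)
          _ = ⟪K V0 Z, Z⟫ := by field_simp
    have heig : K V0 U = b • U := by
      have h4 : ∀ Z : E, ⟪K V0 U - b • U, Z⟫ = 0 := by
        intro Z
        set a : ℝ := ⟪Z, V0⟫ with ha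
        have hZ' : ⟪Z - a • V0, V0⟫ = 0 := by
          rw [inner_sub_left, real_inner_smul_left, hVV, ha]; ring
        have h5 := TS.A5.crit (K V0) (hK.self V0) (U := U) (Z := Z - a • V0) (b := b)
          (by rw [hU1]; simp [hb]) (fun t => hge _ (by
            rw [inner_add_left, real_inner_smul_left, hUV, hZ']; ring))
        have h6 : ⟪K V0 U, V0⟫ = 0 := by
          rw [hK.self, h2, real_inner_smul_right, hUV, mul_zero]
        rw [inner_sub_right, inner_sub_right, real_inner_smul_right, real_inner_smul_right,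
          h6, hUV] at h5
        rw [inner_sub_left, real_inner_smul_left]
        linarith
      exact sub_eq_zero.1 (inner_self_eq_zero.1 (h4 _) : K V0 U - b • U = 0)
    have hU0 : U ≠ 0 := by
      intro h0
      rw [h0, norm_zero] at hU1
      exact zero_ne_one hU1
    -- the sequence
    have hF0 := h.pos V0 hV0
    obtain ⟨V, hVdef⟩ : ∃ V : E, V = (F V0)⁻¹ • V0 := ⟨_, rfl⟩
    have hFV : F V = 1 := by
      rw [hVdef, h.smul, abs_of_pos (inv_pos.2 hF0), inv_mul_cancel₀ hF0.ne']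
    have hnV : n V = c • V0 := by rw [hVdef, h.n_smul (inv_pos.2 hF0) hV0, hn]
    have hUV' : ⟪U, V⟫ = 0 := by rw [hVdef, real_inner_smul_right, hUV, mul_zero]
    obtain ⟨s, Vj, cj, hs, hs0, hcj, hVj0, hnVj, hVjlim, hUVj⟩ := h.approx_seq V U hFV
    have hUVj' := hUVj hU0 hUV'
    have hV0' : V ≠ 0 := by
      rw [hVdef]
      exact smul_ne_zero (inv_pos.2 hF0).ne' hV0
    have hμ : ∀ j, ∃ μ : ℝ, K (c • V0 + s j • U) (Vj j) = μ • Vj j := by
      intro j
      obtain ⟨μ, hμ⟩ := hK.eig (Vj j) (hVj0 j)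
      rw [hnVj, hnV, map_smul, _root_.smul_apply] at hμ
      refine ⟨(cj j)⁻¹ * μ, ?_⟩
      rw [mul_smul, ← hμ, smul_smul, inv_mul_cancel₀ (hcj j).ne', one_smul]
    choose μ hμ using hμ
    have hμlim : Tendsto μ atTop (𝓝 (c * κ)) := by
      have hKV : K (c • V0) V = (c * κ) • V := by
        rw [map_smul, _root_.smul_apply, hVdef, map_smul, h2, smul_smul, smul_smul, smul_smul]
        ring_nf
      have ha : Tendsto (fun j => c • V0 + s j • U) atTop (𝓝 (c • V0)) := by
        have := (hs0.smul_const U).const_add (c • V0)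
        simpa using this
      exact TS.A5.mu_lim K ha hVjlim hV0' hVj0 hKV hμ
    -- inner product with `U`
    have hid : ∀ j, (μ j - c * b) * ⟪Vj j, U⟫ = s j * ⟪Vj j, K U U⟫ := by
      intro j
      have i1 : ⟪K (c • V0 + s j • U) (Vj j), U⟫ = μ j * ⟪Vj j, U⟫ := by
        rw [hμ j, real_inner_smul_left]
      rw [hK.self, map_add, map_smul, map_smul, _root_.add_apply,
        _root_.smul_apply, _root_.smul_apply, heig, inner_add_right,
        real_inner_smul_right, real_inner_smul_right, real_inner_smul_right] at i1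
      linarith
    have hVjU : ∀ j, 0 < ⟪Vj j, U⟫ := fun j => by
      rw [real_inner_comm]; exact hUVj' j
    rcases hb0.lt_or_eq with hbneg | hbz
    · -- `b < 0`
      have i3 : ⟪V, K U U⟫ = (F V0)⁻¹ * b := by
        rw [hVdef, real_inner_smul_left, ← hK.self, hK.symm, heig, real_inner_smul_left,
          real_inner_self_eq_norm_sq, hU1]
        ring
      have hl : Tendsto (fun j => ⟪Vj j, K U U⟫) atTop (𝓝 ((F V0)⁻¹ * b)) := by
        rw [← i3]
        exact hVjlim.inner tendsto_const_nhds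
      have hneg' : (F V0)⁻¹ * b < 0 := mul_neg_of_pos_of_neg (inv_pos.2 hF0) hbneg
      have hev := hl.eventually_lt_const hneg'
      have hcκ : 0 < c * κ := mul_pos hc hκ
      have hev2 : ∀ᶠ j in atTop, 0 < μ j := hμlim.eventually_const_lt hcκ
      obtain ⟨j, hj1, hj2⟩ := (hev.and hev2).exists
      have i4 := hid j
      have i5 : 0 < (μ j - c * b) * ⟪Vj j, U⟫ := by
        apply mul_pos _ (hVjU j)
        have := mul_neg_of_pos_of_neg hc hbneg
        linarith
      have i6 := mul_neg_of_pos_of_neg (hs j) hj1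
      linarith
    · -- `b = 0`
      have hKU : K V0 U = 0 := by rw [heig, hbz, zero_smul]
      have hKU' : K U V0 = 0 := by rw [hK.symm, hKU]
      have hlimV0 : Tendsto (fun j => ⟪Vj j, V0⟫) atTop (𝓝 (F V0)⁻¹) := by
        have e : ⟪V, V0⟫ = (F V0)⁻¹ := by rw [hVdef, real_inner_smul_left, hVV, mul_one]
        rw [← e]
        exact hVjlim.inner tendsto_const_nhds
      have hev1 : ∀ᶠ j in atTop, 0 < ⟪Vj j, V0⟫ :=
        hlimV0.eventually_const_lt (inv_pos.2 hF0)
      have hcκ : 0 < c * κ / 2 := by have := mul_pos hc hκ; linarith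
      have hlims : Tendsto (fun j => s j * ‖K U‖) atTop (𝓝 0) := by
        have := hs0.mul_const ‖K U‖
        simpa using this
      have hev2 : ∀ᶠ j in atTop, s j * ‖K U‖ < c * κ / 2 := hlims.eventually_lt_const hcκ
      obtain ⟨j, hj1, hj2⟩ := (hev1.and hev2).exists
      -- `μ j = c κ`
      have hμj : μ j = c * κ := by
        have i1 : ⟪K (c • V0 + s j • U) (Vj j), V0⟫ = μ j * ⟪Vj j, V0⟫ := by
          rw [hμ j, real_inner_smul_left]
        rw [hK.self, map_add, map_smul, map_smul, _root_.add_apply,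
          _root_.smul_apply, _root_.smul_apply, h2, hKU', smul_zero, add_zero,
          real_inner_smul_right, real_inner_smul_right] at i1
        have i2 : (μ j - c * κ) * ⟪Vj j, V0⟫ = 0 := by linarith
        rcases mul_eq_zero.1 i2 with i3 | i3
        · linarith
        · exact absurd i3 hj1.ne'
      obtain ⟨X, hX⟩ : ∃ X : E, X = Vj j - ⟪Vj j, V0⟫ • V0 := ⟨_, rfl⟩
      have hXV : ⟪X, V0⟫ = 0 := by
        rw [hX, inner_sub_left, real_inner_smul_left, hVV]; ring
      have hXV' : ⟪V0, X⟫ = 0 := by rw [real_inner_comm]; exact hXV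
      have hVjX : Vj j = ⟪Vj j, V0⟫ • V0 + X := by rw [hX]; abel
      have hX0 : X ≠ 0 := by
        intro h0
        have i1 := hVjU j
        rw [hVjX, h0, add_zero, real_inner_smul_left, real_inner_comm U V0, hUV, mul_zero] at i1
        exact lt_irrefl _ i1
      have hXn : 0 < ‖X‖ ^ 2 := by
        have := norm_pos_iff.2 hX0
        positivity
      -- inner product with `X`
      have i1 : ⟪K (c • V0 + s j • U) (Vj j), X⟫ = c * κ * ‖X‖ ^ 2 := by
        rw [hμ j, real_inner_smul_left, hμj]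
        congr 1
        conv_lhs => rw [hVjX]
        rw [inner_add_left, real_inner_smul_left, hXV', mul_zero, zero_add,
          real_inner_self_eq_norm_sq]
      have i2 : K (c • V0 + s j • U) (Vj j) =
          (⟪Vj j, V0⟫ * (c * κ)) • V0 + (c • K V0 X + s j • K U X) := by
        conv_lhs => rw [hVjX]
        rw [map_add, map_smul, map_add, map_smul, map_smul]
        simp only [_root_.add_apply, _root_.smul_apply]
        rw [h2, hKU']
        module
      rw [i2, inner_add_left, real_inner_smul_left, hXV', mul_zero, zero_add, inner_add_left,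
        real_inner_smul_left, real_inner_smul_left] at i1
      have i3 := mul_le_mul_of_nonneg_left (h3 X hXV) hc.le
      have i4 : ⟪K U X, X⟫ ≤ ‖K U‖ * ‖X‖ ^ 2 := by
        calc ⟪K U X, X⟫ ≤ ‖K U X‖ * ‖X‖ := real_inner_le_norm _ _
          _ ≤ (‖K U‖ * ‖X‖) * ‖X‖ :=
              mul_le_mul_of_nonneg_right ((K U).le_opNorm X) (norm_nonneg _)
          _ = ‖K U‖ * ‖X‖ ^ 2 := by ring
      have i5 := mul_le_mul_of_nonneg_left i4 (hs j).le
      have i6 : s j * (‖K U‖ * ‖X‖ ^ 2) < c * κ / 2 * ‖X‖ ^ 2 := by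
        rw [← mul_assoc]
        exact mul_lt_mul_of_pos_right hj2 hXn
      have i7 : c * (κ / 2 * ‖X‖ ^ 2) = c * κ / 2 * ‖X‖ ^ 2 := by ring
      have i8 : c * κ * ‖X‖ ^ 2 = c * κ / 2 * ‖X‖ ^ 2 + c * κ / 2 * ‖X‖ ^ 2 := by ring
      linarith
  -- general vectors
  intro U hU
  set a : ℝ := ⟪U, V0⟫ with ha
  have hU' : ⟪U - a • V0, V0⟫ = 0 := by
    rw [inner_sub_left, real_inner_smul_left, hVV, ha]; ring
  set U' : E := U - a • V0 with hU'def
  have hUeq : U = a • V0 + U' := by rw [hU'def]; abel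
  have e1 : ⟪K V0 U, U⟫ = a ^ 2 * κ + ⟪K V0 U', U'⟫ := by
    have e2 : ⟪K V0 U', V0⟫ = 0 := by
      rw [hK.self, h2, real_inner_smul_right, hU', mul_zero]
    have e3 : ⟪V0, U'⟫ = 0 := by rw [real_inner_comm]; exact hU'
    rw [hUeq, map_add, map_smul, h2]
    simp only [inner_add_left, inner_add_right, real_inner_smul_left, real_inner_smul_right]
    rw [e2, e3, hVV]
    ring
  rw [e1]
  by_cases hU'0 : U' = 0
  · have ha0 : a ≠ 0 := by
      intro h0
      apply hU
      rw [hUeq, h0, hU'0]; simp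
    rw [hU'0]
    have : 0 < a ^ 2 * κ := by positivity
    simpa using this
  · have := main U' hU'0 hU'
    have h5 : 0 ≤ a ^ 2 * κ := by positivity
    linarith

end Vale.Agent.H11.TT
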