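import Vale.Agent.H11.TT.T2
import Vale.Agent.H11.TT.T5
import Vale.Agent.H11.TT.A7
import Vale.Agent.H11.TT.A8

/-! # The algebraic lemma -/

namespace Vale.Agent.H11.TT

open Filter Topology
open scoped RealInnerProductSpace
open Vale.Agent.H11.TS (CubicData)

variable {E : Type*} [NormedAddCommGroup E] [InnerProductSpace ℝ E]
variable {F : E → ℝ} {n : E → E} {K : E →L[ℝ] E →L[ℝ] E}

theorem cubic_eq_zero [FiniteDimensional ℝ E] (h : GradData F n) (hK : CubicData n K)
    (hdim : 2 ≤ Module.finrank ℝ E) : K = 0 :=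
  A8.cubic_eq_zero_of h hK hdim
    (fun h1 hκ h2 h3 _ hc hn => K_top_pos h hK h1 hκ h2 h3 hc hn)
    (fun hV hμ htop hW0 hW hWV _ hpos =>
      no_double_of h hK (fun V w hV => h.approx_seq V w hV) hV hμ htop hW0 hW hWV hpos)

end Vale.Agent.H11.TT
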