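import Vale.Agent.H11.TS.B6

/-!
# The identities of part B for `C²` norms
-/

namespace Vale.Agent.H11.TT

open Filter Topology Metric
open scoped RealInnerProductSpace
open Vale.Agent.H11.TS

variable {X Y : Type*} [NormedAddCommGroup X] [NormedSpace ℝ X]
    [NormedAddCommGroup Y] [NormedSpace ℝ Y]

/-- all the smoothness that is used in this file -/
structure Smooth2 (Φ : X → Y) : Prop where
  nX : ∀ x : X, x ≠ 0 → ContDiffAt ℝ 2 (fun y : X => ‖y‖) x
  nY : ∀ y : Y, y ≠ 0 → ContDiffAt ℝ 2 (fun y : Y => ‖y‖) y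
  map : ∀ x : X, x ≠ 0 → ContDiffAt ℝ 2 Φ x

theorem N2_fderiv {Φ : X → Y} (hΦ : SphMap Φ) (hneg : ∀ x, Φ (-x) = -Φ x)
    (hs : Smooth2 Φ) {x : X} (hx : x ≠ 0) (u w : X) :
    N2 Y (Φ x) (fderiv ℝ Φ x u) (fderiv ℝ Φ x w) = N2 X x u w := by
  have hx' : 0 < ‖x‖ := norm_pos_iff.2 hx
  have hN : DifferentiableAt ℝ (fun y : X => ‖y‖) x :=
    (hs.nX x hx).differentiableAt (by norm_num)
  have hd : DifferentiableAt ℝ Φ x := (hs.map x hx).differentiableAt (by norm_num)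
  have hdi : DifferentiableAt ℝ (fun y : X => y) x := differentiableAt_id
  have h1 := hΦ.hasDerivAt_second hx hN hd (hs.nY _ (hΦ.ne_zero hx)) w u
  have h2 := (sphMap_id (X := X)).hasDerivAt_second hx hN hdi
    (hs.nX x hx) w u
  have hcont : ContinuousAt (fun s : ℝ => x + s • u) 0 := by fun_prop
  have hne : ∀ᶠ s : ℝ in 𝓝 0, x + s • u ≠ 0 := by
    apply hcont.eventually_ne
    simpa using hx
  have hne2 : ∀ᶠ s : ℝ in 𝓝 0, ‖x + s • u‖ • x + ‖x‖ • (x + s • u) ≠ 0 := by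
    have hc : ContinuousAt (fun s : ℝ => ‖x + s • u‖ • x + ‖x‖ • (x + s • u)) 0 := by fun_prop
    apply hc.eventually_ne
    simp only [zero_smul, add_zero]
    rw [← add_smul]
    exact smul_ne_zero (by positivity) hx
  have h3 : (fun s : ℝ => N1 Y (‖x + s • u‖ • Φ x + ‖x‖ • Φ (x + s • u))
        (‖x + s • u‖ • fderiv ℝ Φ x w + N1 X x w • Φ (x + s • u))) =ᶠ[𝓝 0]
      (fun s : ℝ => N1 X (‖x + s • u‖ • x + ‖x‖ • (x + s • u))
        (‖x + s • u‖ • fderiv ℝ (fun y : X => y) x w + N1 X x w • (x + s • u))) := by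
    filter_upwards [hne, hne2] with s hs1 hs2
    have hs3 : ‖x + s • u‖ • Φ x + ‖x‖ • Φ (x + s • u) ≠ 0 := by
      rw [← norm_ne_zero_iff, hΦ.norm_add_eq hneg hx hs1]
      exact norm_ne_zero_iff.2 hs2
    have a1 := SphMap.hasDerivAt_first (Θ := Φ) (z := x + s • u) hN hd
      ((hs.nY _ hs3).differentiableAt (by norm_num)) w
    have a2 := SphMap.hasDerivAt_first (Θ := fun y : X => y) (z := x + s • u) hN hdi
      ((hs.nX _ hs2).differentiableAt (by norm_num)) w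
    have hcont' : ContinuousAt (fun s : ℝ => x + s • w) 0 := by fun_prop
    have hne' : ∀ᶠ t : ℝ in 𝓝 0, x + t • w ≠ 0 := by
      apply hcont'.eventually_ne
      simpa using hx
    have a3 : (fun t : ℝ => ‖‖x + s • u‖ • Φ (x + t • w) + ‖x + t • w‖ • Φ (x + s • u)‖) =ᶠ[𝓝 0]
        (fun t : ℝ => ‖‖x + s • u‖ • (x + t • w) + ‖x + t • w‖ • (x + s • u)‖) := by
      filter_upwards [hne'] with t ht
      exact hΦ.norm_add_eq hneg ht hs1
    exact (a1.congr_of_eventuallyEq a3.symm).unique a2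
  have h4 := (h1.congr_of_eventuallyEq h3.symm).unique h2
  have h5 : fderiv ℝ (fun y : X => y) x = ContinuousLinearMap.id ℝ X := fderiv_id
  rw [h5] at h4
  simp only [ContinuousLinearMap.id_apply] at h4
  have h6 : ‖x‖ / 2 * N2 Y (Φ x) (fderiv ℝ Φ x u) (fderiv ℝ Φ x w) = ‖x‖ / 2 * N2 X x u w := by
    linarith
  exact mul_left_cancel₀ (by positivity) h6

theorem N1_fderiv {Φ : X → Y} (hΦ : SphMap Φ)
    (hs : Smooth2 Φ) {x : X} (hx : x ≠ 0) (w : X) :
    N1 Y (Φ x) (fderiv ℝ Φ x w) = N1 X x w := by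
  have hN : DifferentiableAt ℝ (fun y : X => ‖y‖) x :=
    (hs.nX x hx).differentiableAt (by norm_num)
  have hd : DifferentiableAt ℝ Φ x := (hs.map x hx).differentiableAt (by norm_num)
  have hN' : DifferentiableAt ℝ (fun y : Y => ‖y‖) (Φ x) :=
    (hs.nY _ (hΦ.ne_zero hx)).differentiableAt (by norm_num)
  exact hΦ.norming_fderiv hN hd _ (fun y => (le_abs_self _).trans (N1_le _ _)) (N1_self hN') w

theorem N1_fderiv2 {Φ : X → Y} (hΦ : SphMap Φ) (hneg : ∀ x, Φ (-x) = -Φ x)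
    (hs : Smooth2 Φ) {x : X} (hx : x ≠ 0) (u w : X) :
    N1 Y (Φ x) (fderiv ℝ (fderiv ℝ Φ) x u w) = 0 := by
  have hxo : {y : X | y ≠ 0} ∈ 𝓝 x := isOpen_ne.mem_nhds hx
  have h1 : (fun z : X => N1 Y (Φ z) (fderiv ℝ Φ z w)) =ᶠ[𝓝 x] fun z => N1 X z w := by
    filter_upwards [hxo] with z hz
    exact N1_fderiv hΦ hs hz w
  have hN1X : HasFDerivAt (N1 X) (N2 X x) x :=
    (((hs.nX x hx).fderiv_right (m := 1) (by norm_num)).differentiableAt (by norm_num)).hasFDerivAt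
  have hN1Y : HasFDerivAt (N1 Y) (N2 Y (Φ x)) (Φ x) :=
    (((hs.nY _ (hΦ.ne_zero hx)).fderiv_right (m := 1) (by norm_num)).differentiableAt
      (by norm_num)).hasFDerivAt
  have hd : HasFDerivAt Φ (fderiv ℝ Φ x) x :=
    ((hs.map x hx).differentiableAt (by norm_num)).hasFDerivAt
  have hd2 : HasFDerivAt (fderiv ℝ Φ) (fderiv ℝ (fderiv ℝ Φ) x) x :=
    (((hs.map x hx).fderiv_right (m := 1) (by norm_num)).differentiableAt (by norm_num)).hasFDerivAt
  have h2 := (hN1Y.comp x hd).clm_apply (hd2.clm_apply (hasFDerivAt_const w x))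
  have h3 := (hN1X.clm_apply (hasFDerivAt_const w x)).congr_of_eventuallyEq h1
  have h4 := DFunLike.congr_fun (h2.unique h3) u
  simp at h4
  have h5 := N2_fderiv hΦ hneg hs hx u w
  linarith

theorem N1_fderiv_tangent {Φ : X → Y} (hΦ : SphMap Φ)
    (hs : Smooth2 Φ) {x : X} (hx : x ≠ 0) {v w : X} (hv0 : v ≠ 0) (hv : N1 X x v = 0)
    (hw : N1 X x w = 0) :
    N1 Y (fderiv ℝ Φ x v) (fderiv ℝ Φ x w) = N1 X v w := by
  have hN : DifferentiableAt ℝ (fun y : X => ‖y‖) x :=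
    (hs.nX x hx).differentiableAt (by norm_num)
  have hd : DifferentiableAt ℝ Φ x := (hs.map x hx).differentiableAt (by norm_num)
  have h1 : ∀ t : ℝ, ‖fderiv ℝ Φ x v + t • fderiv ℝ Φ x w‖ = ‖v + t • w‖ := by
    intro t
    have := hΦ.norm_fderiv hx hN hd (v + t • w)
    have h0 : N1 X x (v + t • w) = 0 := by rw [map_add, map_smul, hv, hw]; simp
    rw [h0, map_add, map_smul] at this
    simpa using this
  have hne : fderiv ℝ Φ x v ≠ 0 := by
    have := h1 0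
    rw [zero_smul, zero_smul, add_zero, add_zero] at this
    rw [← norm_ne_zero_iff, this]; exact norm_ne_zero_iff.2 hv0
  have h2 : HasDerivAt (fun t : ℝ => ‖fderiv ℝ Φ x v + t • fderiv ℝ Φ x w‖)
      (N1 Y (fderiv ℝ Φ x v) (fderiv ℝ Φ x w)) 0 := by
    have : HasFDerivAt (fun y : Y => ‖y‖) (N1 Y (fderiv ℝ Φ x v))
        (fderiv ℝ Φ x v + (0 : ℝ) • fderiv ℝ Φ x w) := by
      simpa using ((hs.nY _ hne).differentiableAt (by norm_num)).hasFDerivAt
    exact this.comp_hasDerivAt 0 (hasDerivAt_line _ _ 0)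
  have h3 : HasDerivAt (fun t : ℝ => ‖v + t • w‖) (N1 X v w) 0 := by
    have : HasFDerivAt (fun y : X => ‖y‖) (N1 X v) (v + (0 : ℝ) • w) := by
      simpa using ((hs.nX _ hv0).differentiableAt (by norm_num)).hasFDerivAt
    exact this.comp_hasDerivAt 0 (hasDerivAt_line _ _ 0)
  have h4 : (fun t : ℝ => ‖fderiv ℝ Φ x v + t • fderiv ℝ Φ x w‖) = fun t : ℝ => ‖v + t • w‖ :=
    funext h1
  rw [h4] at h2
  exact h2.unique h3

theorem hasDerivAt_tangential {Θ : X → Y} {x : X} (hx : x ≠ 0)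
    (hX : ContDiffAt ℝ 2 (fun y : X => ‖y‖) x) (hΘ : ContDiffAt ℝ 2 Θ x) {v : X}
    (hv : N1 X x v = 0) (u : X) :
    HasDerivAt (fun t : ℝ => fderiv ℝ Θ (x + t • u) v -
        (N1 X (x + t • u) v / ‖x + t • u‖) • Θ (x + t • u))
      (fderiv ℝ (fderiv ℝ Θ) x u v - (N2 X x u v / ‖x‖) • Θ x) 0 := by
  have hx' : ‖x‖ ≠ 0 := norm_ne_zero_iff.2 hx
  have h1 : HasDerivAt (fun t : ℝ => fderiv ℝ Θ (x + t • u)) (fderiv ℝ (fderiv ℝ Θ) x u) 0 := by
    have : HasFDerivAt (fderiv ℝ Θ) (fderiv ℝ (fderiv ℝ Θ) x) (x + (0 : ℝ) • u) := by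
      simpa using ((hΘ.fderiv_right (m := 1) (by norm_num)).differentiableAt
        (by norm_num)).hasFDerivAt
    exact this.comp_hasDerivAt 0 (hasDerivAt_line x u 0)
  have h2 : HasDerivAt (fun t : ℝ => N1 X (x + t • u)) (N2 X x u) 0 := by
    have : HasFDerivAt (N1 X) (N2 X x) (x + (0 : ℝ) • u) := by
      simpa using ((hX.fderiv_right (m := 1) (by norm_num)).differentiableAt
        (by norm_num)).hasFDerivAt
    exact this.comp_hasDerivAt 0 (hasDerivAt_line x u 0)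
  have h3 : HasDerivAt (fun t : ℝ => ‖x + t • u‖) (N1 X x u) 0 := by
    have : HasFDerivAt (fun y : X => ‖y‖) (N1 X x) (x + (0 : ℝ) • u) := by
      simpa using (hX.differentiableAt (by norm_num)).hasFDerivAt
    exact this.comp_hasDerivAt 0 (hasDerivAt_line x u 0)
  have h4 : HasDerivAt (fun t : ℝ => Θ (x + t • u)) (fderiv ℝ Θ x u) 0 := by
    have : HasFDerivAt Θ (fderiv ℝ Θ x) (x + (0 : ℝ) • u) := by
      simpa using (hΘ.differentiableAt (by norm_num)).hasFDerivAt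
    exact this.comp_hasDerivAt 0 (hasDerivAt_line x u 0)
  have h5 := h1.clm_apply (hasDerivAt_const (0 : ℝ) v)
  have h6 := (h2.clm_apply (hasDerivAt_const (0 : ℝ) v)).div h3 (by simpa using hx')
  have h7 := h5.sub (h6.smul h4)
  refine h7.congr_deriv ?_
  simp [hv]
  field_simp

theorem exists_mu {Φ : X → Y} (hΦ : SphMap Φ)
    (hs : Smooth2 Φ) {x : X} (hx : x ≠ 0) {v : X} (hv0 : v ≠ 0) (hv : N1 X x v = 0) :
    ∃ μ : ℝ, ∀ u, N1 Y (fderiv ℝ Φ x v) (fderiv ℝ (fderiv ℝ Φ) x u v) = μ * N2 X x u v := by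
  refine ⟨(N1 Y (fderiv ℝ Φ x v) (Φ x) - N1 X v x) / ‖x‖, fun u => ?_⟩
  have hN : DifferentiableAt ℝ (fun y : X => ‖y‖) x :=
    (hs.nX x hx).differentiableAt (by norm_num)
  have hd : DifferentiableAt ℝ Φ x := (hs.map x hx).differentiableAt (by norm_num)
  have hx' : ‖x‖ ≠ 0 := norm_ne_zero_iff.2 hx
  have hnv : ‖fderiv ℝ Φ x v‖ = ‖v‖ := by
    have := hΦ.norm_fderiv hx hN hd v
    rw [hv] at this
    simpa using this
  have hne : fderiv ℝ Φ x v ≠ 0 := by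
    rw [← norm_ne_zero_iff, hnv]; exact norm_ne_zero_iff.2 hv0
  have h1 := hasDerivAt_tangential (Θ := Φ) hx (hs.nX x hx) (hs.map x hx) hv u
  have h2 := hasDerivAt_tangential (Θ := fun y : X => y) hx (hs.nX x hx) contDiffAt_id hv u
  have h3 : HasFDerivAt (fun y : Y => ‖y‖) (N1 Y (fderiv ℝ Φ x v))
      (fderiv ℝ Φ (x + (0 : ℝ) • u) v -
        (N1 X (x + (0 : ℝ) • u) v / ‖x + (0 : ℝ) • u‖) • Φ (x + (0 : ℝ) • u)) := by
    have e : fderiv ℝ Φ (x + (0 : ℝ) • u) v -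
        (N1 X (x + (0 : ℝ) • u) v / ‖x + (0 : ℝ) • u‖) • Φ (x + (0 : ℝ) • u) =
        fderiv ℝ Φ x v := by simp [hv]
    rw [e]
    exact ((hs.nY _ hne).differentiableAt (by norm_num)).hasFDerivAt
  have hfid : ∀ y : X, fderiv ℝ (fun y : X => y) y = ContinuousLinearMap.id ℝ X := fun y => fderiv_id
  have h4 : HasFDerivAt (fun y : X => ‖y‖) (N1 X v)
      (fderiv ℝ (fun y : X => y) (x + (0 : ℝ) • u) v -
        (N1 X (x + (0 : ℝ) • u) v / ‖x + (0 : ℝ) • u‖) • (x + (0 : ℝ) • u)) := by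
    have e : fderiv ℝ (fun y : X => y) (x + (0 : ℝ) • u) v -
        (N1 X (x + (0 : ℝ) • u) v / ‖x + (0 : ℝ) • u‖) • (x + (0 : ℝ) • u) = v := by
      simp [hv]
    rw [e]
    exact ((hs.nX _ hv0).differentiableAt (by norm_num)).hasFDerivAt
  have h5 := h3.comp_hasDerivAt 0 h1
  have h6 := h4.comp_hasDerivAt 0 h2
  have hcont' : ContinuousAt (fun s : ℝ => x + s • u) 0 := by fun_prop
  have hne' : ∀ᶠ t : ℝ in 𝓝 0, x + t • u ≠ 0 := by
    apply hcont'.eventually_ne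
    simpa using hx
  have h7 : ((fun y : Y => ‖y‖) ∘ fun t : ℝ => fderiv ℝ Φ (x + t • u) v -
        (N1 X (x + t • u) v / ‖x + t • u‖) • Φ (x + t • u)) =ᶠ[𝓝 0]
      ((fun y : X => ‖y‖) ∘ fun t : ℝ => fderiv ℝ (fun y : X => y) (x + t • u) v -
        (N1 X (x + t • u) v / ‖x + t • u‖) • (x + t • u)) := by
    filter_upwards [hne'] with t ht
    have := hΦ.norm_fderiv ht ((hs.nX _ ht).differentiableAt (by norm_num))
      ((hs.map _ ht).differentiableAt (by norm_num)) v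
    simpa using this
  have h8 := (h5.congr_of_eventuallyEq h7.symm).unique h6
  have e2 : fderiv ℝ (fderiv ℝ fun y : X => y) x = 0 := by
    have : (fderiv ℝ fun y : X => y) = fun _ => ContinuousLinearMap.id ℝ X := funext hfid
    rw [this]; simp
  rw [e2, map_sub, map_smul, map_sub, map_smul] at h8
  simp only [smul_eq_mul] at h8
  have h00 : (0 : X →L[ℝ] X →L[ℝ] X) u v = 0 := rfl
  rw [h00, _root_.map_zero] at h8
  field_simp at h8 ⊢
  linarith


/-- precomposition -/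
noncomputable def pre {E : Type*} [NormedAddCommGroup E] [NormedSpace ℝ E] (ι : E →L[ℝ] X) :
    (X →L[ℝ] ℝ) →L[ℝ] (E →L[ℝ] ℝ) := (ContinuousLinearMap.compL ℝ E X ℝ).flip ι

theorem pre_apply {E : Type*} [NormedAddCommGroup E] [NormedSpace ℝ E] (ι : E →L[ℝ] X)
    (φ : X →L[ℝ] ℝ) (w : E) : pre ι φ w = φ (ι w) := by
  simp [pre]

/-- if `θ ∘ Dg` vanishes identically near `x`, then `(Dθ a)(Dg b)` is symmetric -/
theorem symm_of_comp_eq_zero {g : X → Y} {θ : X → Y →L[ℝ] ℝ} {x : X}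
    {θ' : X →L[ℝ] Y →L[ℝ] ℝ} (hθ : HasFDerivAt θ θ' x)
    (hg : ∀ᶠ p in 𝓝 x, DifferentiableAt ℝ g p) (hgc : ContinuousAt (fderiv ℝ g) x)
    (h0 : ∀ᶠ p in 𝓝 x, ∀ u, θ p (fderiv ℝ g p u) = 0) (a b : X) :
    θ' a (fderiv ℝ g x b) = θ' b (fderiv ℝ g x a) := by
  -- `q = θ x ∘ g`
  have hq : ∀ᶠ p in 𝓝 x, HasFDerivAt (fun p => θ x (g p)) ((θ x) ∘L fderiv ℝ g p) p := by
    filter_upwards [hg] with p hp
    exact (θ x).hasFDerivAt.comp p hp.hasFDerivAt
  have hq' : ∀ᶠ p in 𝓝 x, (θ x) ∘L fderiv ℝ g p = (θ x - θ p) ∘L fderiv ℝ g p := by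
    filter_upwards [h0] with p hp
    ext u
    show θ x (fderiv ℝ g p u) = θ x (fderiv ℝ g p u) - θ p (fderiv ℝ g p u)
    rw [hp u, sub_zero]
  -- derivative of `(θ x - θ p) ∘ fderiv g p`
  let B : X →L[ℝ] X →L[ℝ] ℝ := -((pre (fderiv ℝ g x)) ∘L θ')
  have hB : HasFDerivAt (fun p => (θ x) ∘L fderiv ℝ g p) B x := by
    have e2 : HasFDerivAt (fun p => pre (fderiv ℝ g x) (θ x - θ p)) B x := by
      have e0 : HasFDerivAt (fun p => θ x - θ p) (-θ') x := by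
        exact hθ.const_sub (θ x)
      have := (pre (fderiv ℝ g x)).hasFDerivAt.comp x e0
      refine this.congr_fderiv ?_
      ext a b
      simp [B]
    have e3 : HasFDerivAt (fun p => (θ x - θ p) ∘L (fderiv ℝ g p - fderiv ℝ g x))
        (0 : X →L[ℝ] X →L[ℝ] ℝ) x := by
      rw [hasFDerivAt_iff_isLittleO]
      have o1 : (fun p => θ p - θ x) =O[𝓝 x] fun p => p - x := hθ.isBigO_sub
      have o2 : (fun p => fderiv ℝ g p - fderiv ℝ g x) =o[𝓝 x] fun _ => (1 : ℝ) := by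
        rw [Asymptotics.isLittleO_one_iff]
        have hh : Tendsto (fun p => fderiv ℝ g p - fderiv ℝ g x) (𝓝 x)
            (𝓝 (fderiv ℝ g x - fderiv ℝ g x)) := Tendsto.sub hgc tendsto_const_nhds
        rwa [sub_self] at hh
      have o3 : (fun p => ‖θ p - θ x‖ * ‖fderiv ℝ g p - fderiv ℝ g x‖) =o[𝓝 x]
          fun p => ‖p - x‖ * 1 := by
        have := o1.norm_norm.mul_isLittleO o2.norm_norm
        simpa using this
      have o4 : (fun p => (θ x - θ p) ∘L (fderiv ℝ g p - fderiv ℝ g x)) =O[𝓝 x]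
          (fun p => ‖θ p - θ x‖ * ‖fderiv ℝ g p - fderiv ℝ g x‖) := by
        refine Asymptotics.IsBigO.of_bound 1 (Filter.Eventually.of_forall fun p => ?_)
        rw [one_mul, Real.norm_of_nonneg (by positivity), norm_sub_rev (θ p)]
        exact ContinuousLinearMap.opNorm_comp_le _ _
      have o5 := o4.trans_isLittleO o3
      simp only [mul_one] at o5
      have o6 := o5.of_norm_right
      simpa using o6
    have e1 : HasFDerivAt (fun p => (θ x - θ p) ∘L fderiv ℝ g p) B x := by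
      have e4 := e2.add e3
      rw [add_zero] at e4
      refine e4.congr_of_eventuallyEq (Filter.Eventually.of_forall fun p => ?_)
      ext u
      simp [pre_apply]
    exact e1.congr_of_eventuallyEq hq'
  have hsym := second_derivative_symmetric_of_eventually hq hB a b
  have h1 : B a b = -(θ' a (fderiv ℝ g x b)) := rfl
  have h2 : B b a = -(θ' b (fderiv ℝ g x a)) := rfl
  rw [h1, h2] at hsym
  exact neg_injective hsym

theorem cubic_symm {Φ : X → Y} (hΦ : SphMap Φ) (hneg : ∀ x, Φ (-x) = -Φ x)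
    (hs : Smooth2 Φ) {x : X} (hx : x ≠ 0) (u v w : X) :
    N2 Y (Φ x) (fderiv ℝ (fderiv ℝ Φ) x u v) (fderiv ℝ Φ x w) =
      N2 Y (Φ x) (fderiv ℝ (fderiv ℝ Φ) x w v) (fderiv ℝ Φ x u) := by
  have hxo : {y : X | y ≠ 0} ∈ 𝓝 x := isOpen_ne.mem_nhds hx
  have hN1Y : HasFDerivAt (N1 Y) (N2 Y (Φ x)) (Φ x) :=
    (((hs.nY _ (hΦ.ne_zero hx)).fderiv_right (m := 1) (by norm_num)).differentiableAt
      (by norm_num)).hasFDerivAt
  have hd : HasFDerivAt Φ (fderiv ℝ Φ x) x :=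
    ((hs.map x hx).differentiableAt (by norm_num)).hasFDerivAt
  have hθ : HasFDerivAt (fun z => N1 Y (Φ z)) (N2 Y (Φ x) ∘L fderiv ℝ Φ x) x :=
    HasFDerivAt.comp (g := N1 Y) (f := Φ) x hN1Y hd
  have hD : ∀ z : X, z ≠ 0 → HasFDerivAt (fun z => fderiv ℝ Φ z v)
      ((fderiv ℝ (fderiv ℝ Φ) z).flip v) z := by
    intro z hz
    have h1 : HasFDerivAt (fderiv ℝ Φ) (fderiv ℝ (fderiv ℝ Φ) z) z :=
      (((hs.map z hz).fderiv_right (m := 1) (by norm_num)).differentiableAt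
        (by norm_num)).hasFDerivAt
    have h2 := h1.clm_apply (hasFDerivAt_const v z)
    refine h2.congr_fderiv ?_
    ext a
    simp
  have hg : ∀ᶠ p in 𝓝 x, DifferentiableAt ℝ (fun z => fderiv ℝ Φ z v) p := by
    filter_upwards [hxo] with p hp
    exact (hD p hp).differentiableAt
  have hfe : (fderiv ℝ fun z => fderiv ℝ Φ z v) =ᶠ[𝓝 x]
      fun z => (fderiv ℝ (fderiv ℝ Φ) z).flip v := by
    filter_upwards [hxo] with p hp
    exact (hD p hp).fderiv
  have hgc : ContinuousAt (fderiv ℝ fun z => fderiv ℝ Φ z v) x := by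
    refine ContinuousAt.congr ?_ hfe.symm
    have h1 : ContinuousAt (fderiv ℝ (fderiv ℝ Φ)) x :=
      (((hs.map x hx).fderiv_right (m := 1) (by norm_num)).fderiv_right (m := 0)
        (by norm_num)).continuousAt
    have h2 : Continuous fun L : X →L[ℝ] X →L[ℝ] Y => L.flip v :=
      (ContinuousLinearMap.apply ℝ (X →L[ℝ] Y) v).continuous.comp
        (ContinuousLinearMap.flipₗᵢ ℝ X X Y).continuous
    exact h2.continuousAt.comp h1
  have h0 : ∀ᶠ p in 𝓝 x, ∀ u, N1 Y (Φ p) (fderiv ℝ (fun z => fderiv ℝ Φ z v) p u) = 0 := by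
    filter_upwards [hxo] with p hp u
    rw [(hD p hp).fderiv]
    exact N1_fderiv2 hΦ hneg hs hp u v
  have key := symm_of_comp_eq_zero hθ hg hgc h0 u w
  rw [(hD x hx).fderiv] at key
  have hsN : ∀ a b, N2 Y (Φ x) a b = N2 Y (Φ x) b a := fun a b =>
    N2_symm (hs.nY _ (hΦ.ne_zero hx)) a b
  have k1 : N2 Y (Φ x) (fderiv ℝ Φ x u) (fderiv ℝ (fderiv ℝ Φ) x w v) =
      N2 Y (Φ x) (fderiv ℝ Φ x w) (fderiv ℝ (fderiv ℝ Φ) x u v) := key
  rw [hsN, ← k1, hsN]

end Vale.Agent.H11.TT
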