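import Vale.Agent.H11.TT.AFinal
import Vale.Agent.H11.TT.B4

namespace Vale.Agent.H11.TT

open Filter Topology Metric
open scoped RealInnerProductSpace
open Vale.Agent.H11.TS (CubicData SphMap N1 N2 N1_self N1_le N2_symm N2_self
  exists_orthonormal_coords)

variable {X Y : Type*} [NormedAddCommGroup X] [NormedSpace ℝ X]
    [NormedAddCommGroup Y] [NormedSpace ℝ Y]

/-- The Riesz map as a continuous linear map. -/
noncomputable def riesz (E : Type*) [NormedAddCommGroup E] [InnerProductSpace ℝ E]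
    [FiniteDimensional ℝ E] : (E →L[ℝ] ℝ) →L[ℝ] E :=
  LinearMap.toContinuousLinearMap
    { toFun := fun φ => (InnerProductSpace.toDual ℝ E).symm φ
      map_add' := fun φ ψ => map_add _ φ ψ
      map_smul' := fun c φ => by simp }

theorem riesz_apply {E : Type*} [NormedAddCommGroup E] [InnerProductSpace ℝ E]
    [FiniteDimensional ℝ E] (φ : E →L[ℝ] ℝ) (w : E) : ⟪riesz E φ, w⟫ = φ w := by
  simp [riesz, InnerProductSpace.toDual_symm_apply]

theorem gradData_of {E : Type*} [NormedAddCommGroup E] [InnerProductSpace ℝ E]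
    [FiniteDimensional ℝ E] [StrictConvexSpace ℝ X]
    (hX : ∀ x : X, x ≠ 0 → ContDiffAt ℝ 2 (fun y : X => ‖y‖) x) (ι : E →L[ℝ] X)
    (hι : Function.Injective ι) :
    GradData (fun u : E => ‖ι u‖) (fun u => riesz E (pre ι (N1 X (ι u)))) := by
  have hne : ∀ v : E, v ≠ 0 → ι v ≠ 0 := fun v hv h0 => hv (hι (by simpa using h0))
  refine ⟨by fun_prop, fun t v => ?_, fun v w => ?_, fun v hv => norm_pos_iff.2 (hne v hv),
    ?_, ?_, ?_⟩
  · simp [norm_smul]
  · simpa using norm_add_le (ι v) (ι w)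
  · intro v w hv hw hvw
    apply hι
    by_contra hne'
    have h1 : ‖ι v‖ = ‖ι w‖ := by rw [hv, hw]
    have := norm_midpoint_lt_iff h1 |>.2 hne'
    rw [map_smul, map_add] at hvw
    rw [hvw, hv] at this
    exact lt_irrefl _ this
  · intro v hv
    have h1 : HasFDerivAt (fun y : X => ‖y‖) (N1 X (ι v)) (ι v) :=
      ((hX _ (hne v hv)).differentiableAt (by norm_num)).hasFDerivAt
    have h2 := h1.comp v ι.hasFDerivAt
    have h3 : innerSL ℝ (riesz E (pre ι (N1 X (ι v)))) = (N1 X (ι v)) ∘L ι := by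
      ext w
      rw [innerSL_apply_apply, riesz_apply, pre_apply]
      rfl
    show HasFDerivAt _ (innerSL ℝ (riesz E (pre ι (N1 X (ι v))))) v
    rw [h3]
    exact h2
  · intro v hv
    have h1 : ContinuousAt (N1 X) (ι v) :=
      ((hX _ (hne v hv)).fderiv_right (m := 1) (by norm_num)).continuousAt
    have h2 : ContinuousAt (fun u => N1 X (ι u)) v := ContinuousAt.comp (f := ι) h1
      ι.continuous.continuousAt
    have h3 : Continuous fun φ : X →L[ℝ] ℝ => riesz E (pre ι φ) :=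
      (riesz E).continuous.comp (pre ι).continuous
    exact h3.continuousAt.comp h2

theorem fderiv2_eq_zero [FiniteDimensional ℝ X] [FiniteDimensional ℝ Y]
    [StrictConvexSpace ℝ X] (hdim : 3 ≤ Module.finrank ℝ X) {Φ : X → Y} (hΦ : SphMap Φ)
    (hneg : ∀ x, Φ (-x) = -Φ x)
    (hs : Smooth2 Φ) {x : X} (hx : x ≠ 0)
    (hXpos : ∀ v : X, v ∉ Submodule.span ℝ {x} → 0 < N2 X x v v) :
    fderiv ℝ (fderiv ℝ Φ) x = 0 := by
  have hd : DifferentiableAt ℝ Φ x := (hs.map x hx).differentiableAt (by norm_num)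
  have hN : DifferentiableAt ℝ (fun y : X => ‖y‖) x :=
    (hs.nX x hx).differentiableAt (by norm_num)
  have hbij := hΦ.fderiv_bijective hx hN hd
  set P := fderiv ℝ Φ x with hP
  set Q := fderiv ℝ (fderiv ℝ Φ) x with hQ
  have hΦx : Φ x ≠ 0 := by
    rw [← norm_pos_iff, hΦ.norm]; exact norm_pos_iff.2 hx
  have hN' : DifferentiableAt ℝ (fun y : Y => ‖y‖) (Φ x) :=
    (hs.nY _ hΦx).differentiableAt (by norm_num)
  have hPN : ∀ v, N1 Y (Φ x) (P v) = N1 X x v := fun v =>
    hΦ.norming_fderiv hN hd _ (fun y => (le_abs_self _).trans (N1_le _ _)) (N1_self hN') v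
  -- symmetry and homogeneity of Q
  have hQs : ∀ u v, Q u v = Q v u := fun u v =>
    ((hs.map x hx).isSymmSndFDerivAt (by simp)).eq u v
  have hQx : Q x = 0 := hΦ.fderiv2_self (hs.map x hx)
  -- the tangent space
  set T : Submodule ℝ X := LinearMap.ker (N1 X x : X →ₗ[ℝ] ℝ) with hT
  have hTmem : ∀ v : X, v ∈ T ↔ N1 X x v = 0 := fun v => by
    rw [hT, LinearMap.mem_ker]; rfl
  have hxT : x ∉ T := by
    rw [hTmem, N1_self hN]; exact norm_ne_zero_iff.2 hx
  have hTdim : 2 ≤ Module.finrank ℝ T := by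
    have h1 := LinearMap.finrank_range_add_finrank_ker (N1 X x : X →ₗ[ℝ] ℝ)
    have h2 : Module.finrank ℝ (LinearMap.range (N1 X x : X →ₗ[ℝ] ℝ)) ≤ 1 := by
      refine (Submodule.finrank_le _).trans ?_
      simp
    have h3 : Module.finrank ℝ T = Module.finrank ℝ (LinearMap.ker (N1 X x : X →ₗ[ℝ] ℝ)) := rfl
    omega
  set b : T →L[ℝ] T →L[ℝ] ℝ := (pre T.subtypeL) ∘L (N2 X x) ∘L T.subtypeL with hb
  have hbapp : ∀ u v : T, b u v = N2 X x u v := fun u v => rfl
  have hbs : ∀ u v, b u v = b v u := fun u v => by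
    rw [hbapp, hbapp]; exact N2_symm (hs.nX x hx) _ _
  have hbp : ∀ u, u ≠ 0 → 0 < b u u := by
    intro u hu
    rw [hbapp]
    apply hXpos
    intro hmem
    rw [Submodule.mem_span_singleton] at hmem
    obtain ⟨c, hc⟩ := hmem
    have h1 : N1 X x (u : X) = 0 := (hTmem _).1 u.2
    rw [← hc, map_smul, N1_self hN, smul_eq_mul] at h1
    have hc0 : c = 0 := by
      rcases mul_eq_zero.1 h1 with h | h
      · exact h
      · exact absurd h (norm_ne_zero_iff.2 hx)
    apply hu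
    ext
    rw [← hc, hc0, zero_smul]; rfl
  obtain ⟨L, hL⟩ := exists_orthonormal_coords b hbs hbp
  set E := EuclideanSpace ℝ (Fin (Module.finrank ℝ T)) with hE
  set ι : E →L[ℝ] X := T.subtypeL ∘L (L : E →L[ℝ] T) with hι
  have hιT : ∀ u, N1 X x (ι u) = 0 := fun u => (hTmem _).1 (L u).2
  have hιinj : Function.Injective ι := by
    intro u v huv
    exact L.injective (Subtype.ext huv)
  have hιsurj : ∀ t : X, N1 X x t = 0 → ∃ u, ι u = t := by
    intro t ht
    exact ⟨L.symm ⟨t, (hTmem t).2 ht⟩, by simp [hι]⟩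
  have hιb : ∀ u v, N2 X x (ι u) (ι v) = ⟪u, v⟫ := fun u v => hL u v
  have hND := gradData_of hs.nX ι hιinj
  -- the cubic operator
  let K0 : E →ₗ[ℝ] E →ₗ[ℝ] E := LinearMap.mk₂ ℝ
    (fun u v => riesz E (pre (P ∘L ι) (N2 Y (Φ x) (Q (ι u) (ι v)))))
    (by intro u u' v; simp) (by intro c u v; simp) (by intro u v v'; simp)
    (by intro c u v; simp)
  let K : E →L[ℝ] E →L[ℝ] E := LinearMap.toContinuousBilinearMap K0
  have hK : ∀ u v w, ⟪K u v, w⟫ = N2 Y (Φ x) (Q (ι u) (ι v)) (P (ι w)) := by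
    intro u v w
    show ⟪riesz E (pre (P ∘L ι) (N2 Y (Φ x) (Q (ι u) (ι v)))), w⟫ = _
    rw [riesz_apply, pre_apply]; rfl
  have hcs : ∀ u v w, N2 Y (Φ x) (Q u v) (P w) = N2 Y (Φ x) (Q w v) (P u) := fun u v w =>
    cubic_symm hΦ hneg hs hx u v w
  -- preimages
  have hpre : ∀ u w : E, ∃ t : E, P (ι t) = Q (ι u) (ι w) := by
    intro u w
    obtain ⟨t, ht⟩ := hbij.2 (Q (ι u) (ι w))
    have h1 : N1 X x t = 0 := by
      rw [← hPN t, ht]
      exact N1_fderiv2 hΦ hneg hs hx _ _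
    obtain ⟨t', ht'⟩ := hιsurj t h1
    exact ⟨t', by rw [ht', ht]⟩
  have hCD : CubicData (fun u => riesz E (pre ι (N1 X (ι u)))) K := by
    refine ⟨?_, ?_, ?_⟩
    · intro u v
      refine ext_inner_right ℝ fun w => ?_
      rw [hK, hK, hQs]
    · intro u v w
      rw [real_inner_comm _ v, hK, hK, hcs (ι u) (ι v) (ι w), hQs (ι w) (ι v),
        hcs (ι v) (ι w) (ι u)]
    · intro v hv
      have hιv : ι v ≠ 0 := fun h0 => hv (hιinj (by simpa using h0))
      obtain ⟨μ, hμ⟩ := exists_mu hΦ hs hx hιv (hιT v)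
      refine ⟨μ, ?_⟩
      refine ext_inner_right ℝ fun w => ?_
      rw [hK, hcs, inner_smul_left]
      obtain ⟨t, ht⟩ := hpre w v
      rw [← ht, N2_fderiv hΦ hneg hs hx, hιb, real_inner_comm, riesz_apply, pre_apply]
      rw [← N1_fderiv_tangent hΦ hs hx hιv (hιT v) (hιT t)]
      rw [← hP, ht]
      have := hμ (ι w)
      rw [← hP, ← hQ] at this
      rw [this, hιb, real_inner_comm]
      simp
  have hEdim : 2 ≤ Module.finrank ℝ E := by
    show 2 ≤ Module.finrank ℝ (EuclideanSpace ℝ (Fin (Module.finrank ℝ T)))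
    rw [finrank_euclideanSpace, Fintype.card_fin]; exact hTdim
  have hK0 : K = 0 := cubic_eq_zero hND hCD hEdim
  have hQT : ∀ u v : E, Q (ι u) (ι v) = 0 := by
    intro u v
    obtain ⟨t, ht⟩ := hpre u v
    have h1 : ⟪t, t⟫ = 0 := by
      have h2 : ⟪K u v, t⟫ = 0 := by rw [hK0]; simp
      rw [hK, ← ht, hP, N2_fderiv hΦ hneg hs hx, hιb] at h2
      exact h2
    rw [inner_self_eq_zero] at h1
    rw [← ht, h1]; simp
  have hdec : ∀ v : X, ∃ (c : ℝ) (u : E), v = c • x + ι u := by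
    intro v
    obtain ⟨u, hu⟩ := hιsurj (v - (N1 X x v / ‖x‖) • x) (by
      rw [map_sub, map_smul, N1_self hN, smul_eq_mul, div_mul_cancel₀ _ (norm_ne_zero_iff.2 hx),
        sub_self])
    exact ⟨N1 X x v / ‖x‖, u, by rw [hu]; abel⟩
  ext v w
  obtain ⟨c, u, rfl⟩ := hdec v
  obtain ⟨c', u', rfl⟩ := hdec w
  have h1 : Q x = 0 := hQx
  have h2 : ∀ v, Q v x = 0 := fun v => by rw [hQs, h1]; rfl
  simp only [map_add, map_smul, ContinuousLinearMap.add_apply, ContinuousLinearMap.smul_apply,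
    h2, hQT, h1, ContinuousLinearMap.zero_apply, smul_zero, add_zero]

end Vale.Agent.H11.TT
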