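import Vale.Agent.H11.TS.Defs
import Vale.Agent.H11.TS.A3

/-!
# Tingley's problem for `C²` strictly convex norms: definitions for the algebraic lemma
-/

namespace Vale.Agent.H11.TT

open Filter Topology
open scoped RealInnerProductSpace
open Vale.Agent.H11.TS (CubicData)

variable {E : Type*} [NormedAddCommGroup E] [InnerProductSpace ℝ E]

/-- `F` is a strictly convex norm on the inner product space `E`, differentiable off the origin
with continuous gradient `n`. -/
structure GradData (F : E → ℝ) (n : E → E) : Prop where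
  cont : Continuous F
  smul : ∀ (t : ℝ) (v : E), F (t • v) = |t| * F v
  add_le : ∀ v w, F (v + w) ≤ F v + F w
  pos : ∀ v, v ≠ 0 → 0 < F v
  strict : ∀ v w, F v = 1 → F w = 1 → F ((1 / 2 : ℝ) • (v + w)) = 1 → v = w
  grad : ∀ v, v ≠ 0 → HasFDerivAt F (innerSL ℝ (n v)) v
  ncont : ∀ v, v ≠ 0 → ContinuousAt n v

end Vale.Agent.H11.TT
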