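import Vale.Agent.H11.TS.B4b

/-!
# Strongly convex points are dense
-/

namespace Vale.Agent.H11.TT

open Filter Topology Metric
open scoped RealInnerProductSpace
open Vale.Agent.H11.TS (N1 N2 N1_self N1_le N2_symm N2_self hasDerivAt_line)

variable {X : Type*} [NormedAddCommGroup X] [NormedSpace ℝ X]

theorem second_deriv_nonneg {φ φ' : ℝ → ℝ} {c : ℝ} (hmin : IsLocalMin φ 0)
    (h1 : ∀ᶠ t in 𝓝 (0 : ℝ), HasDerivAt φ (φ' t) t) (h2 : HasDerivAt φ' c 0) : 0 ≤ c := by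
  by_contra hc
  push Not at hc
  have hd : deriv φ =ᶠ[𝓝 0] φ' := h1.mono fun t ht => ht.deriv
  have hdd : deriv (deriv φ) 0 = c := by
    rw [hd.deriv_eq]; exact h2.deriv
  have h10 : HasDerivAt φ (φ' 0) 0 := h1.self_of_nhds
  have h0 : deriv φ 0 = 0 := hmin.deriv_eq_zero
  have hmax : IsLocalMax φ 0 :=
    isLocalMax_of_deriv_deriv_neg (by rw [hdd]; exact hc) h0 h10.continuousAt
  have hconst : φ =ᶠ[𝓝 0] fun _ => φ 0 := by
    filter_upwards [hmin, hmax] with t ht1 ht2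
    exact le_antisymm ht2 ht1
  have h3 : deriv φ =ᶠ[𝓝 0] fun _ => 0 := by
    have := hconst.deriv
    simpa using this
  have h4 : deriv (deriv φ) 0 = 0 := by
    rw [h3.deriv_eq]; simp
  rw [h4] at hdd
  linarith

theorem norm_lt_of_ker [StrictConvexSpace ℝ X] {x u : X} (hx : x ≠ 0)
    (hN : DifferentiableAt ℝ (fun y : X => ‖y‖) x) (hu : N1 X x u = 0) (hu0 : u ≠ 0) :
    ‖x‖ < ‖x + u‖ := by
  have h1 : ∀ t : ℝ, ‖x‖ ≤ ‖x + t • u‖ := by
    intro t
    have h2 := (le_abs_self _).trans (N1_le x (x + t • u))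
    rw [map_add, map_smul, hu, N1_self hN] at h2
    simpa using h2
  refine lt_of_le_of_ne (by simpa using h1 1) fun heq => ?_
  have h3 : x ≠ x + u := fun h => hu0 (by simpa using h.symm)
  have h4 := (norm_midpoint_lt_iff heq).2 h3
  have h5 : (1 / 2 : ℝ) • (x + (x + u)) = x + (1 / 2 : ℝ) • u := by module
  rw [h5] at h4
  exact absurd (h1 (1 / 2)) (not_le.2 h4)

theorem dense_pos [FiniteDimensional ℝ X] [StrictConvexSpace ℝ X]
    (hX : ∀ x : X, x ≠ 0 → ContDiffAt ℝ 2 (fun y : X => ‖y‖) x) {x0 : X} (hx0 : x0 ≠ 0)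
    {η : ℝ} (hη : 0 < η) :
    ∃ x1 : X, ‖x1 - x0‖ < η ∧ x1 ≠ 0 ∧
      ∀ v : X, v ∉ Submodule.span ℝ {x1} → 0 < N2 X x1 v v := by
  have hN0 : DifferentiableAt ℝ (fun y : X => ‖y‖) x0 := (hX x0 hx0).differentiableAt (by norm_num)
  let e : X ≃L[ℝ] EuclideanSpace ℝ (Fin (Module.finrank ℝ X)) := toEuclidean
  -- radius
  obtain ⟨C, hC0, hC⟩ : ∃ C : ℝ, 0 < C ∧ ∀ u : X, ‖u‖ ≤ C * ‖e u‖ := by
    refine ⟨‖(e.symm : EuclideanSpace ℝ (Fin (Module.finrank ℝ X)) →L[ℝ] X)‖ + 1, by positivity,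
      fun u => ?_⟩
    have h1 := (e.symm : EuclideanSpace ℝ (Fin (Module.finrank ℝ X)) →L[ℝ] X).le_opNorm (e u)
    have h2 : (e.symm : EuclideanSpace ℝ (Fin (Module.finrank ℝ X)) →L[ℝ] X) (e u) = u := by simp
    rw [h2] at h1
    nlinarith [norm_nonneg (e u)]
  set r : ℝ := η / (2 * C) with hr
  have hr0 : 0 < r := by positivity
  -- compact sets
  let T : Set X := {u | N1 X x0 u = 0}
  have hTc : IsClosed T := isClosed_eq (N1 X x0).continuous continuous_const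
  have hSc : IsCompact (T ∩ {u | ‖e u‖ = r}) := by
    have h1 : IsCompact (e ⁻¹' (sphere 0 r)) := e.toHomeomorph.isCompact_preimage.2
      (isCompact_sphere 0 r)
    have h2 : T ∩ {u | ‖e u‖ = r} = e ⁻¹' (sphere 0 r) ∩ T := by
      ext u; simp [and_comm]
    rw [h2]
    exact h1.inter_right hTc
  have hKc : IsCompact (T ∩ {u | ‖e u‖ ≤ r}) := by
    have h1 : IsCompact (e ⁻¹' (closedBall 0 r)) := e.toHomeomorph.isCompact_preimage.2
      (isCompact_closedBall 0 r)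
    have h2 : T ∩ {u | ‖e u‖ ≤ r} = e ⁻¹' (closedBall 0 r) ∩ T := by
      ext u; simp [and_comm]
    rw [h2]
    exact h1.inter_right hTc
  -- gap on the sphere
  obtain ⟨δ, hδ, hδ'⟩ : ∃ δ : ℝ, 0 < δ ∧ ∀ u ∈ T ∩ {u | ‖e u‖ = r}, ‖x0‖ + δ ≤ ‖x0 + u‖ := by
    rcases (T ∩ {u | ‖e u‖ = r}).eq_empty_or_nonempty with hemp | hne
    · exact ⟨1, one_pos, fun u hu => by rw [hemp] at hu; exact absurd hu (Set.notMem_empty u)⟩
    · obtain ⟨u, hu, hmin⟩ := hSc.exists_isMinOn hne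
        (f := fun u => ‖x0 + u‖) (by fun_prop)
      have hu0 : u ≠ 0 := by
        rintro rfl
        have : ‖e (0 : X)‖ = r := hu.2
        rw [map_zero, norm_zero] at this
        exact hr0.ne this
      refine ⟨‖x0 + u‖ - ‖x0‖, by linarith [norm_lt_of_ker hx0 hN0 hu.1 hu0], fun w hw => ?_⟩
      have := hmin hw
      simp only at this
      have h3 : ‖x0 + u‖ ≤ ‖x0 + w‖ := this
      linarith
  set ε : ℝ := δ / (2 * r ^ 2) with hε
  have hε0 : 0 < ε := by positivity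
  -- minimise
  have h0K : (0 : X) ∈ T ∩ {u | ‖e u‖ ≤ r} := by
    refine ⟨by simp [T], ?_⟩
    show ‖e 0‖ ≤ r
    rw [map_zero, norm_zero]; exact hr0.le
  obtain ⟨u1, hu1, hmin⟩ := hKc.exists_isMinOn ⟨0, h0K⟩
    (f := fun u => ‖x0 + u‖ - ε * ‖e u‖ ^ 2) (by fun_prop)
  have hmin' : ∀ u ∈ T ∩ {u | ‖e u‖ ≤ r},
      ‖x0 + u1‖ - ε * ‖e u1‖ ^ 2 ≤ ‖x0 + u‖ - ε * ‖e u‖ ^ 2 := fun u hu => hmin hu
  have hu1T : N1 X x0 u1 = 0 := hu1.1
  have hu1r : ‖e u1‖ < r := by
    refine lt_of_le_of_ne hu1.2 fun heq => ?_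
    have h1 := hδ' u1 ⟨hu1.1, heq⟩
    have h2 := hmin' 0 h0K
    rw [add_zero, map_zero, norm_zero, heq] at h2
    have h3 : ε * r ^ 2 = δ / 2 := by rw [hε]; field_simp
    rw [h3] at h2
    nlinarith
  have hx1 : x0 + u1 ≠ 0 := by
    intro h
    have h1 : N1 X x0 (x0 + u1) = ‖x0‖ := by rw [map_add, hu1T, N1_self hN0, add_zero]
    rw [h, map_zero] at h1
    exact norm_ne_zero_iff.2 hx0 h1.symm
  have hc1 := hX _ hx1
  -- second derivative
  have hpos : ∀ w : X, N1 X x0 w = 0 → w ≠ 0 → 0 < N2 X (x0 + u1) w w := by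
    intro w hw hw0
    set x1 := x0 + u1 with hx1def
    have hcont : ContinuousAt (fun t : ℝ => x1 + t • w) 0 := by fun_prop
    have hne : ∀ᶠ t : ℝ in 𝓝 0, x1 + t • w ≠ 0 := by
      apply hcont.eventually_ne
      simpa using hx1
    have hφ : ∀ᶠ t : ℝ in 𝓝 0, HasDerivAt
        (fun t : ℝ => ‖x1 + t • w‖ - ε * ‖e (u1 + t • w)‖ ^ 2)
        (N1 X (x1 + t • w) w - ε * (2 * ⟪e (u1 + t • w), e w⟫)) t := by
      filter_upwards [hne] with t ht
      have h1 : HasDerivAt (fun t : ℝ => ‖x1 + t • w‖) (N1 X (x1 + t • w) w) t :=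
        (((hX _ ht).differentiableAt (by norm_num)).hasFDerivAt).comp_hasDerivAt t
          (hasDerivAt_line x1 w t)
      have h2 : HasDerivAt (fun t : ℝ => e (u1 + t • w)) (e w) t := by
        have := (e : X →L[ℝ] EuclideanSpace ℝ (Fin (Module.finrank ℝ X))).hasFDerivAt.comp_hasDerivAt t
          (hasDerivAt_line u1 w t)
        exact this
      have h3 := h2.norm_sq
      exact h1.sub (h3.const_mul ε)
    have hφ2 : HasDerivAt (fun t : ℝ => N1 X (x1 + t • w) w - ε * (2 * ⟪e (u1 + t • w), e w⟫))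
        (N2 X x1 w w - ε * (2 * ⟪e w, e w⟫)) 0 := by
      have h1 : HasDerivAt (fun t : ℝ => N1 X (x1 + t • w)) (N2 X x1 w) 0 := by
        have : HasFDerivAt (N1 X) (N2 X x1) (x1 + (0 : ℝ) • w) := by
          simpa using ((hc1.fderiv_right (m := 1) (by norm_num)).differentiableAt
            (by norm_num)).hasFDerivAt
        exact this.comp_hasDerivAt 0 (hasDerivAt_line x1 w 0)
      have h2 : HasDerivAt (fun t : ℝ => e (u1 + t • w)) (e w) 0 :=
        (e : X →L[ℝ] EuclideanSpace ℝ (Fin (Module.finrank ℝ X))).hasFDerivAt.comp_hasDerivAt 0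
          (hasDerivAt_line u1 w 0)
      have h3 := h1.clm_apply (hasDerivAt_const (0 : ℝ) w)
      have h4 := h2.inner ℝ (hasDerivAt_const (0 : ℝ) (e w))
      have h5 := h3.sub ((h4.const_mul 2).const_mul ε)
      refine h5.congr_deriv ?_
      simp
    have hlm : IsLocalMin (fun t : ℝ => ‖x1 + t • w‖ - ε * ‖e (u1 + t • w)‖ ^ 2) 0 := by
      have hc : ContinuousAt (fun t : ℝ => ‖e (u1 + t • w)‖) 0 := by fun_prop
      have hev : ∀ᶠ t : ℝ in 𝓝 0, ‖e (u1 + t • w)‖ < r := by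
        apply hc.eventually_lt_const
        simpa using hu1r
      filter_upwards [hev] with t ht
      have h1 := hmin' (u1 + t • w) ⟨by
        show N1 X x0 (u1 + t • w) = 0
        rw [map_add, map_smul, hu1T, hw]; simp, ht.le⟩
      simp only [zero_smul, add_zero]
      rw [hx1def, add_assoc]
      exact h1
    have h6 := second_deriv_nonneg hlm hφ hφ2
    have h7 : 0 < ⟪e w, e w⟫ := by
      rw [real_inner_self_eq_norm_sq]
      have : e w ≠ 0 := by simpa using hw0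
      have := norm_pos_iff.2 this
      positivity
    have h8 : 0 < ε * (2 * ⟪e w, e w⟫) := by positivity
    linarith
  refine ⟨x0 + u1, ?_, hx1, fun v hv => ?_⟩
  · rw [add_sub_cancel_left]
    calc ‖u1‖ ≤ C * ‖e u1‖ := hC u1
      _ < C * r := by gcongr
      _ = η / 2 := by rw [hr]; field_simp
      _ < η := by linarith
  · set x1 := x0 + u1 with hx1def
    have hx0' : ‖x0‖ ≠ 0 := norm_ne_zero_iff.2 hx0
    have hN1x1 : N1 X x0 x1 = ‖x0‖ := by
      rw [hx1def, map_add, hu1T, N1_self hN0, add_zero]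
    set c := N1 X x0 v / ‖x0‖ with hc
    have hw : N1 X x0 (v - c • x1) = 0 := by
      rw [map_sub, map_smul, hN1x1, smul_eq_mul, hc, div_mul_cancel₀ _ hx0', sub_self]
    have hw0 : v - c • x1 ≠ 0 := by
      intro h
      apply hv
      rw [Submodule.mem_span_singleton]
      exact ⟨c, (sub_eq_zero.1 h).symm⟩
    have h1 := hpos _ hw hw0
    have hself : N2 X x1 x1 = 0 := N2_self hc1
    have hself' : ∀ v, N2 X x1 v x1 = 0 := fun v => by
      rw [N2_symm hc1, hself]; rfl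
    have h2 : N2 X x1 (v - c • x1) (v - c • x1) = N2 X x1 v v := by
      rw [map_sub (N2 X x1), map_smul (N2 X x1), hself, smul_zero, sub_zero, map_sub, map_smul,
        hself', smul_zero, sub_zero]
    rw [h2] at h1
    exact h1

end Vale.Agent.H11.TT
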