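import Vale.Agent.H11.TS.S0
import Vale.Agent.H11.TS.S1
import Vale.Agent.H11.TS.B3
import Vale.Agent.H11.TS.S2
import Vale.Agent.H11.TT.B5
import Vale.Agent.H11.TT.Dense

namespace Vale.Agent.H11.TT

open Filter Topology Metric
open Vale.Agent.H11.TS (exists_sphMap N2)

variable {X Y : Type*} [NormedAddCommGroup X] [NormedSpace ℝ X]
    [NormedAddCommGroup Y] [NormedSpace ℝ Y]

theorem mazurUlam_of_C2 [FiniteDimensional ℝ X] [StrictConvexSpace ℝ X]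
    (hX : ContDiffOn ℝ 2 (fun x : X => ‖x‖) {0}ᶜ)
    (hdim : 3 ≤ Module.finrank ℝ X) (f : sphere (0 : X) 1 → sphere (0 : Y) 1) (hf : Isometry f)
    (hs : Function.Surjective f) : ∃ T : X ≃ₗᵢ[ℝ] Y, ∀ x : sphere (0 : X) 1, T x = f x := by
  obtain ⟨Φ, hΦ, hΦf⟩ := exists_sphMap f hf hs
  have := hΦ.finiteDimensional
  have hneg := hΦ.neg
  have hnX : ∀ x : X, x ≠ 0 → ContDiffAt ℝ 2 (fun y : X => ‖y‖) x := fun x hx =>
    hX.contDiffAt (isOpen_compl_singleton.mem_nhds hx)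
  have hnY1 : ∀ y : Y, y ≠ 0 → ContDiffAt ℝ (1 : ℕ) (fun y : Y => ‖y‖) y := fun y hy =>
    Vale.Agent.H11.TS.contDiffAt_norm_of_unique (fun w hw φ ψ h1 h2 h3 h4 =>
      hΦ.unique_norming (fun x hx => (hnX x hx).differentiableAt (by norm_num)) w hw φ ψ
        h1 h2 h3 h4) hy
  have hΦ1 : ∀ x : X, x ≠ 0 → ContDiffAt ℝ (1 : ℕ) Φ x := fun x hx =>
    hΦ.contDiffAt le_rfl (fun z hz => (hnX z hz).of_le (by norm_num)) hnY1 hx
  have hnY2 : ∀ y : Y, y ≠ 0 → ContDiffAt ℝ (2 : ℕ) (fun y : Y => ‖y‖) y := fun y hy =>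
    hΦ.contDiffAt_norm_succ (k := 1) le_rfl (fun z hz => (hnX z hz).of_le (by norm_num))
      hnY1 hΦ1 hy
  have hΦ2 : ∀ x : X, x ≠ 0 → ContDiffAt ℝ (2 : ℕ) Φ x := fun x hx =>
    hΦ.contDiffAt (by norm_num) (fun z hz => (hnX z hz).of_le (by norm_num)) hnY2 hx
  have hsm : Smooth2 Φ := ⟨hnX, hnY2, hΦ2⟩
  have hD0 : ∀ x : X, x ≠ 0 → fderiv ℝ (fderiv ℝ Φ) x = 0 := by
    intro x hx
    have hc : ContinuousAt (fderiv ℝ (fderiv ℝ Φ)) x :=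
      (((hsm.map x hx).fderiv_right (m := 1) (by norm_num)).fderiv_right (m := 0)
        (by norm_num)).continuousAt
    by_contra hne
    have hev : ∀ᶠ z in 𝓝 x, fderiv ℝ (fderiv ℝ Φ) z ≠ 0 := hc.eventually_ne hne
    obtain ⟨η, hη, hball⟩ := Metric.eventually_nhds_iff.1 hev
    obtain ⟨x1, h1, h2, h3⟩ := dense_pos hnX hx hη
    exact hball (by rw [dist_eq_norm]; exact h1) (fderiv2_eq_zero hdim hΦ hneg hsm h2 h3)
  obtain ⟨T, hT⟩ := hΦ.exists_linear hdim (fun x hx => (hΦ2 x hx).of_le (by norm_num)) hD0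
  exact ⟨T, fun x => by rw [hT, hΦf]⟩

end Vale.Agent.H11.TT
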