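import Vale.Agent.H11.TT.A1

/-! Row T2: maximisers of perturbed functionals. -/

namespace Vale.Agent.H11.TT

open Filter Topology
open scoped RealInnerProductSpace
open Vale.Agent.H11.TS (CubicData)

variable {E : Type*} [NormedAddCommGroup E] [InnerProductSpace ℝ E]
variable {F : E → ℝ} {n : E → E}

theorem GradData.approx_seq [FiniteDimensional ℝ E] (h : GradData F n) (V w : E)
    (hV : F V = 1) :
    ∃ (s : ℕ → ℝ) (Vj : ℕ → E) (c : ℕ → ℝ),
      (∀ j, 0 < s j) ∧ Tendsto s atTop (𝓝 0) ∧ (∀ j, 0 < c j) ∧ (∀ j, Vj j ≠ 0) ∧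
      (∀ j, n (Vj j) = c j • (n V + s j • w)) ∧ Tendsto Vj atTop (𝓝 V) ∧
      (w ≠ 0 → ⟪w, V⟫ = 0 → ∀ j, 0 < ⟪w, Vj j⟫) := by
  have hV0 : V ≠ 0 := by
    intro h0
    rw [h0, h.F_zero] at hV
    exact zero_ne_one hV
  have : Nontrivial E := ⟨⟨V, 0, hV0⟩⟩
  have hnV : ⟪n V, V⟫ = 1 := by rw [h.n_self hV0, hV]
  obtain ⟨m, hm, hlow⟩ := h.a1_lower
  obtain ⟨B, hB⟩ : ∃ B : ℝ, B = 1 + |⟪w, V⟫| := ⟨_, rfl⟩
  have hB1 : 1 ≤ B := by rw [hB]; linarith [abs_nonneg ⟪w, V⟫]
  have hB0 : 0 < B := by linarith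
  obtain ⟨s0, hs0⟩ : ∃ s0 : ℕ → ℝ, s0 = fun j : ℕ => 1 / ((j : ℝ) + 1) * B⁻¹ := ⟨_, rfl⟩
  have hs0pos : ∀ j, 0 < s0 j := fun j => by rw [hs0]; positivity
  have hs0lim : Tendsto s0 atTop (𝓝 0) := by
    rw [hs0]
    have := (tendsto_one_div_add_atTop_nhds_zero_nat (𝕜 := ℝ)).mul_const B⁻¹
    simpa using this
  have hs0le : ∀ j, s0 j * |⟪w, V⟫| < 1 := by
    intro j
    have h1 : s0 j * B ≤ 1 := by
      have e : s0 j * B = 1 / ((j : ℝ) + 1) := by
        rw [hs0]; field_simp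
      rw [e, div_le_one (by positivity)]
      have : (0 : ℝ) ≤ j := Nat.cast_nonneg j
      linarith
    have h2 : |⟪w, V⟫| < B := by rw [hB]; linarith
    calc s0 j * |⟪w, V⟫| < s0 j * B := mul_lt_mul_of_pos_left h2 (hs0pos j)
      _ ≤ 1 := h1
  have hν : ∀ j, ⟪n V + s0 j • w, V⟫ = 1 + s0 j * ⟪w, V⟫ := by
    intro j
    rw [inner_add_left, real_inner_smul_left, hnV]
  have hνpos : ∀ j, 0 < 1 + s0 j * ⟪w, V⟫ := by
    intro j
    have h1 := hs0le j
    have h2 : -(s0 j * |⟪w, V⟫|) ≤ s0 j * ⟪w, V⟫ := by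
      rw [← mul_neg]
      exact mul_le_mul_of_nonneg_left (neg_abs_le _) (hs0pos j).le
    linarith
  have hν0 : ∀ j, n V + s0 j • w ≠ 0 := by
    intro j h0
    have h1 := hν j
    rw [h0, inner_zero_left] at h1
    have := hνpos j
    linarith
  choose U M hM hFU hU0 hnU hle hUM using fun j => h.exists_max (n V + s0 j • w) (hν0 j)
  have hM1 : ∀ j, 1 + s0 j * ⟪w, V⟫ ≤ M j := by
    intro j
    have := hle j V
    rw [hν j, hV, mul_one] at this
    exact this
  have hUb : ∀ j, ‖U j‖ ≤ m⁻¹ := by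
    intro j
    have := hlow (U j)
    rw [hFU j] at this
    rw [← one_div, le_div_iff₀ hm]
    linarith
  have hWU : ∀ j, |⟪w, U j⟫| ≤ ‖w‖ * m⁻¹ := by
    intro j
    exact (abs_real_inner_le_norm _ _).trans (mul_le_mul_of_nonneg_left (hUb j) (norm_nonneg _))
  have hnU1 : ∀ j, ⟪n V, U j⟫ = M j - s0 j * ⟪w, U j⟫ := by
    intro j
    have := hUM j
    rw [inner_add_left, real_inner_smul_left] at this
    linarith
  have hnUlow : ∀ j, 1 + s0 j * ⟪w, V⟫ - s0 j * (‖w‖ * m⁻¹) ≤ ⟪n V, U j⟫ := by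
    intro j
    rw [hnU1 j]
    have h1 := mul_le_mul_of_nonneg_left ((le_abs_self _).trans (hWU j)) (hs0pos j).le
    have h2 := hM1 j
    linarith
  have hnUup : ∀ j, ⟪n V, U j⟫ ≤ 1 := by
    intro j
    have := h.n_le hV0 (U j)
    rw [hFU j] at this
    exact this
  have hnUlim : Tendsto (fun j => ⟪n V, U j⟫) atTop (𝓝 1) := by
    have h1 : Tendsto (fun j => 1 + s0 j * ⟪w, V⟫ - s0 j * (‖w‖ * m⁻¹)) atTop (𝓝 1) := by
      have := ((hs0lim.mul_const ⟪w, V⟫).const_add 1).sub (hs0lim.mul_const (‖w‖ * m⁻¹))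
      simpa using this
    exact tendsto_of_tendsto_of_tendsto_of_le_of_le h1 tendsto_const_nhds hnUlow hnUup
  have hstrict : ∀ Z, F Z = 1 → ⟪n V, Z⟫ = 1 → V = Z := by
    intro Z hFZ hnZ
    have hVZ : F ((1 / 2 : ℝ) • (V + Z)) = 1 := by
      apply le_antisymm
      · rw [h.smul, abs_of_pos (by norm_num)]
        have := h.add_le V Z
        linarith
      · have := h.n_le hV0 ((1 / 2 : ℝ) • (V + Z))
        rw [real_inner_smul_right, inner_add_right, hnV, hnZ] at this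
        linarith
    exact h.strict V Z hV hFZ hVZ
  have hUlim : Tendsto U atTop (𝓝 V) := by
    apply tendsto_of_subseq_tendsto
    intro ns hns
    obtain ⟨Z, -, φ, hφ, hZ⟩ := (isCompact_closedBall (0 : E) m⁻¹).tendsto_subseq
      (x := fun j => U (ns j)) (fun j => by simpa using hUb (ns j))
    refine ⟨φ, ?_⟩
    have hFZ : F Z = 1 := by
      have h1 := (h.cont.tendsto Z).comp hZ
      have h2 : Tendsto (F ∘ ((fun j => U (ns j)) ∘ φ)) atTop (𝓝 1) := by
        refine tendsto_const_nhds.congr fun j => ?_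
        simp [hFU]
      exact tendsto_nhds_unique h1 h2
    have hnZ : ⟪n V, Z⟫ = 1 := by
      have h1 : Tendsto (fun j => ⟪n V, U (ns (φ j))⟫) atTop (𝓝 ⟪n V, Z⟫) :=
        tendsto_const_nhds.inner hZ
      have h2 := hnUlim.comp (hns.comp hφ.tendsto_atTop)
      exact tendsto_nhds_unique h1 h2
    have := hstrict Z hFZ hnZ
    rw [this]
    exact hZ
  refine ⟨s0, U, fun j => (M j)⁻¹, hs0pos, hs0lim, fun j => inv_pos.2 (hM j), hU0, hnU, hUlim, ?_⟩
  intro hw hwV j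
  have hs := hs0pos j
  have h1 : 1 ≤ M j := by
    have := hM1 j
    rw [hwV, mul_zero, add_zero] at this
    exact this
  have h2 : 0 ≤ s0 j * ⟪w, U j⟫ := by
    have := hnU1 j
    have := hnUup j
    linarith
  have h3 : 0 ≤ ⟪w, U j⟫ := by
    by_contra hneg
    push Not at hneg
    have := mul_neg_of_pos_of_neg hs hneg
    linarith
  rcases h3.lt_or_eq with h4 | h4
  · exact h4
  · exfalso
    have h5 : ⟪n V, U j⟫ = 1 := by
      have e1 := hnU1 j
      rw [← h4, mul_zero, sub_zero] at e1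
      have := hnUup j
      linarith
    have h6 : V = U j := hstrict (U j) (hFU j) h5
    have h7 : M j = 1 := by
      have e1 := hnU1 j
      rw [← h4, mul_zero, sub_zero, h5] at e1
      exact e1.symm
    have h8 := hnU j
    rw [← h6, h7, inv_one, one_smul] at h8
    have h9 : s0 j • w = 0 := by
      have h10 : n V + s0 j • w = n V + 0 := by rw [add_zero]; exact h8.symm
      exact add_left_cancel h10
    rcases smul_eq_zero.1 h9 with h10 | h10
    · exact hs.ne' h10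
    · exact hw h10

end Vale.Agent.H11.TT
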